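import Vale.Agent.P240.Sys

/-! P240 CycA. Flags of independent commuting involutions. Plan: closure of a set of commuting
involutions is commutative of exponent two (Subgroup.closure_induction); strictness from indep;
card_closure by induction on m or through the map from Fin m to Bool (products of subsets, injective
by indep); no_chain: the i-th member of a chain has at least 2^(i+1) elements (Lagrange). -/

namespace Vale.Agent.P240

open Matrix

theorem ea_CycA {G : Type*} [Group G] (S : Set G) (sq : ∀ x ∈ S, x * x = 1)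
    (comm : ∀ x ∈ S, ∀ y ∈ S, x * y = y * x) :
    (∀ x ∈ Subgroup.closure S, ∀ y ∈ Subgroup.closure S, x * y = y * x) ∧
      ∀ x ∈ Subgroup.closure S, x ^ 2 = 1 := by
  have h1 : ∀ x ∈ S, ∀ y ∈ Subgroup.closure S, Commute x y := by
    intro x hx y hy
    induction hy using Subgroup.closure_induction with
    | mem y hy => exact comm x hx y hy
    | one => exact Commute.one_right x
    | mul a b _ _ ha hb => exact ha.mul_right hb
    | inv a _ ha => exact ha.inv_right
  have h2 : ∀ x ∈ Subgroup.closure S, ∀ y ∈ Subgroup.closure S, Commute x y := by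
    intro x hx y hy
    induction hx using Subgroup.closure_induction with
    | mem x hx => exact h1 x hx y hy
    | one => exact Commute.one_left y
    | mul a b _ _ ha hb => exact ha.mul_left hb
    | inv a _ ha => exact ha.inv_left
  refine ⟨fun x hx y hy => h2 x hx y hy, ?_⟩
  intro x hx
  induction hx using Subgroup.closure_induction with
  | mem x hx => rw [pow_two]; exact sq x hx
  | one => exact one_pow 2
  | mul a b ha' hb' ha hb => rw [(h2 a ha' b hb').mul_pow, ha, hb, one_mul]
  | inv a _ ha => rw [inv_pow, ha, inv_one]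

theorem ea_image_CycA {G : Type*} [Group G] {m : ℕ} {t : Fin m → G} (sq : ∀ j, t j * t j = 1)
    (comm : ∀ j j', t j * t j' = t j' * t j) (A : Set (Fin m)) :
    (∀ x ∈ Subgroup.closure (t '' A), ∀ y ∈ Subgroup.closure (t '' A), x * y = y * x) ∧
      ∀ x ∈ Subgroup.closure (t '' A), x ^ 2 = 1 := by
  apply ea_CycA
  · rintro x ⟨j, -, rfl⟩
    exact sq j
  · rintro x ⟨j, -, rfl⟩ y ⟨j', -, rfl⟩
    exact comm j j'

theorem double_CycA {G : Type*} [Group G] [Finite G] {H K : Subgroup G} (h : H < K) :
    2 * Nat.card H ≤ Nat.card K := by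
  obtain ⟨k, hk⟩ := Subgroup.card_dvd_of_le h.le
  have hpos : 0 < Nat.card K := Nat.card_pos
  have hne : Nat.card H ≠ Nat.card K := fun he =>
    h.ne (Subgroup.eq_of_le_of_card_ge h.le he.ge)
  have k0 : k ≠ 0 := by
    rintro rfl
    omega
  have k1 : k ≠ 1 := by
    rintro rfl
    omega
  have k2 : 2 ≤ k := by omega
  rw [hk, mul_comm]
  exact Nat.mul_le_mul_left _ k2

theorem card_insert_CycA {G : Type*} [Group G] [Finite G] (S : Set G) (a : G)
    (ha : a ∉ Subgroup.closure S)
    (comm : ∀ x ∈ Subgroup.closure (insert a S), ∀ y ∈ Subgroup.closure (insert a S),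
      x * y = y * x)
    (sq : ∀ x ∈ Subgroup.closure (insert a S), x ^ 2 = 1) :
    Nat.card (Subgroup.closure (insert a S)) = 2 * Nat.card (Subgroup.closure S) := by
  have hle : Subgroup.closure S ≤ Subgroup.closure (insert a S) :=
    Subgroup.closure_mono (Set.subset_insert a S)
  have haK : a ∈ Subgroup.closure (insert a S) := Subgroup.subset_closure (Set.mem_insert a S)
  have haa : a * a = 1 := by rw [← pow_two]; exact sq a haK
  have hset : ((Subgroup.closure (insert a S) : Subgroup G) : Set G) =
      (Subgroup.closure S : Set G) ∪ (fun x => a * x) '' (Subgroup.closure S : Set G) := by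
    apply Set.Subset.antisymm
    · intro x hx
      have hx' : x ∈ Subgroup.closure (insert a S) := hx
      clear hx
      induction hx' using Subgroup.closure_induction with
      | mem x hx =>
        rcases hx with rfl | hx
        · exact Or.inr ⟨1, Subgroup.one_mem _, mul_one _⟩
        · exact Or.inl (Subgroup.subset_closure hx)
      | one => exact Or.inl (Subgroup.one_mem _)
      | mul x y hx' hy' hx hy =>
        rcases hx with hx | ⟨u, hu, rfl⟩
        · rcases hy with hy | ⟨v, hv, rfl⟩
          · exact Or.inl (Subgroup.mul_mem _ hx hy)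
          · refine Or.inr ⟨x * v, Subgroup.mul_mem _ hx hv, ?_⟩
            show a * (x * v) = x * (a * v)
            rw [← mul_assoc, ← mul_assoc, comm a haK x hx']
        · rcases hy with hy | ⟨v, hv, rfl⟩
          · exact Or.inr ⟨u * y, Subgroup.mul_mem _ hu hy, (mul_assoc _ _ _).symm⟩
          · refine Or.inl ?_
            have e : a * u * (a * v) = u * v := by
              rw [comm a haK u (hle hu), mul_assoc, ← mul_assoc a a v, haa, one_mul]
            show a * u * (a * v) ∈ Subgroup.closure S
            rw [e]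
            exact Subgroup.mul_mem _ hu hv
      | inv x hx' hx =>
        have e : x⁻¹ = x := by
          rw [inv_eq_iff_mul_eq_one, ← pow_two]
          exact sq x hx'
        rw [e]
        exact hx
    · rintro x (hx | ⟨u, hu, rfl⟩)
      · exact hle hx
      · exact Subgroup.mul_mem _ haK (hle hu)
  have hdisj : Disjoint (Subgroup.closure S : Set G)
      ((fun x => a * x) '' (Subgroup.closure S : Set G)) := by
    rw [Set.disjoint_left]
    rintro x hx ⟨u, hu, rfl⟩
    apply ha
    have := Subgroup.mul_mem _ hx (Subgroup.inv_mem _ hu)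
    simpa using this
  have e1 : Nat.card (Subgroup.closure (insert a S)) =
      ((Subgroup.closure (insert a S) : Subgroup G) : Set G).ncard := rfl
  have e2 : Nat.card (Subgroup.closure S) = ((Subgroup.closure S : Subgroup G) : Set G).ncard := rfl
  rw [e1, e2, hset, Set.ncard_union_eq hdisj, Set.ncard_image_of_injective _ (mul_right_injective a),
    two_mul]

theorem flag_chain {G : Type*} [Group G] {m : ℕ} {t : Fin m → G} (sq : ∀ j, t j * t j = 1)
    (comm : ∀ j j', t j * t j' = t j' * t j)
    (indep : ∀ j, t j ∉ Subgroup.closure (t '' {j' | j' ≠ j})) :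
    StrictMono (flag t) ∧ ∀ i, IsEA 2 (flag t i) := by
  refine ⟨?_, fun i => ⟨?_, ea_image_CycA sq comm _⟩⟩
  · intro i j hij
    refine lt_of_le_of_ne (Subgroup.closure_mono (Set.image_mono (Set.Iic_subset_Iic.2 hij.le))) ?_
    intro he
    apply indep j
    have hj : t j ∈ flag t j := Subgroup.subset_closure ⟨j, Set.mem_Iic.2 le_rfl, rfl⟩
    rw [← he] at hj
    refine Subgroup.closure_mono (Set.image_mono ?_) hj
    intro k hk
    exact (lt_of_le_of_lt hk hij).ne
  · intro he
    apply indep i
    have hi : t i ∈ flag t i := Subgroup.subset_closure ⟨i, Set.mem_Iic.2 le_rfl, rfl⟩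
    rw [he, Subgroup.mem_bot] at hi
    rw [hi]
    exact Subgroup.one_mem _

theorem card_closure {G : Type*} [Group G] [Finite G] {m : ℕ} {t : Fin m → G}
    (sq : ∀ j, t j * t j = 1) (comm : ∀ j j', t j * t j' = t j' * t j)
    (indep : ∀ j, t j ∉ Subgroup.closure (t '' {j' | j' ≠ j})) :
    Nat.card (Subgroup.closure (Set.range t)) = 2 ^ m := by
  have key : ∀ s : Finset (Fin m), Nat.card (Subgroup.closure (t '' (s : Set (Fin m)))) =
      2 ^ s.card := by
    intro s
    induction s using Finset.induction_on with
    | empty => simp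
    | insert j s hj ih =>
      have hea := ea_image_CycA sq comm (insert j (s : Set (Fin m)))
      rw [Set.image_insert_eq] at hea
      rw [Finset.coe_insert, Set.image_insert_eq, card_insert_CycA _ _ ?_ hea.1 hea.2, ih,
        Finset.card_insert_of_notMem hj, pow_succ']
      intro hm
      apply indep j
      refine Subgroup.closure_mono (Set.image_mono ?_) hm
      intro k hk he
      apply hj
      rw [← he]
      exact hk
  have := key Finset.univ
  rwa [Finset.coe_univ, Set.image_univ, Finset.card_univ, Fintype.card_fin] at this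

theorem no_chain {G : Type*} [Group G] [Finite G] {r : ℕ}
    (h : ∀ E : Subgroup G, IsEA 2 E → Nat.card E ≤ 2 ^ r) : IsEmpty (Chain 2 G (r + 1)) := by
  refine ⟨fun c => ?_⟩
  have key : ∀ i : Fin (r + 1), 2 ^ ((i : ℕ) + 1) ≤ Nat.card (c.1 i) := by
    intro i
    induction i using Fin.induction with
    | zero =>
      have := (Subgroup.one_lt_card_iff_ne_bot (c.1 0)).2 (c.2.2 0).1
      rw [Fin.val_zero, zero_add, pow_one]
      exact this
    | succ i ih =>
      have hd := double_CycA (c.2.1 (Fin.castSucc_lt_succ (i := i)))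
      rw [Fin.val_castSucc] at ih
      rw [Fin.val_succ, pow_succ']
      omega
  have h1 := key (Fin.last r)
  have h2 := h _ (c.2.2 (Fin.last r))
  rw [Fin.val_last, pow_succ'] at h1
  have : 0 < 2 ^ r := by positivity
  omega

theorem Sys.chain {G : Type*} [Group G] {m : ℕ} {Γ : Type*} [Fintype Γ] {τ : Γ → Fin m → G}
    {c : Γ → ℚ} {γ₀ : Γ} (h : Sys τ c γ₀) (γ : Γ) (π : Equiv.Perm (Fin m)) :
    StrictMono (flag (τ γ ∘ π)) ∧ ∀ i, IsEA 2 (flag (τ γ ∘ π) i) := by
  refine flag_chain (fun j => h.sq γ _) (fun j j' => h.comm γ _ _) ?_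
  intro j hm
  apply h.indep γ (π j)
  refine Subgroup.closure_mono ?_ hm
  rintro x ⟨k, hk, rfl⟩
  exact ⟨π k, fun he => hk (π.injective he), rfl⟩

/-- The chain of the order complex attached to a system. -/
noncomputable def Sys.cyc {G : Type*} [Group G] {m : ℕ} {Γ : Type*} [Fintype Γ]
    {τ : Γ → Fin m → G} {c : Γ → ℚ} {γ₀ : Γ} (h : Sys τ c γ₀) : Chain 2 G m →₀ ℚ :=
  ∑ γ, ∑ π : Equiv.Perm (Fin m), (c γ * ((Equiv.Perm.sign π : ℤ) : ℚ)) •
    Finsupp.single (⟨flag (τ γ ∘ π), h.chain γ π⟩ : Chain 2 G m) (1 : ℚ)

end Vale.Agent.P240
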