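import Vale.Agent.P240.CycA

/-! P240 CycB. The chain is a cycle. Plan: expand bd (linearCombination), exchange sums, fix the
face index i. For i below the last index the involution pi to pi * swap i (i+1) keeps the face (the
flag changes only at position i) and flips the sign (Finset.sum_involution or Equiv.sum_comp). For
the last index and fixed pi evaluate at a chain d and apply h.face with j = pi last and
Phi t = if (fun a => flag (t comp pi) a.castSucc) = d.1 then 1 else 0. -/

namespace Vale.Agent.P240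

open Matrix

theorem swap_le_CycB {k : ℕ} (i : Fin k) {b x : Fin (k + 1)} (hb : b ≠ i.castSucc) (hx : x ≤ b) :
    Equiv.swap i.castSucc i.succ x ≤ b := by
  rw [Equiv.swap_apply_def]
  split_ifs with h1 h2
  · subst h1
    have h3 := lt_of_le_of_ne hx hb.symm
    rw [Fin.lt_def] at h3
    rw [Fin.le_def]
    simpa using h3
  · subst h2
    exact i.castSucc_lt_succ.le.trans hx
  · exact hx

theorem flag_swap_CycB {G : Type*} [Group G] {k : ℕ} (t : Fin (k + 1) → G)
    (π : Equiv.Perm (Fin (k + 1))) (i : Fin k) {b : Fin (k + 1)} (hb : b ≠ i.castSucc) :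
    flag (t ∘ (π * Equiv.swap i.castSucc i.succ : Equiv.Perm (Fin (k + 1)))) b =
      flag (t ∘ π) b := by
  unfold flag
  refine congrArg _ (Set.Subset.antisymm ?_ ?_)
  · rintro _ ⟨x, hx, rfl⟩
    exact ⟨_, swap_le_CycB i hb hx, rfl⟩
  · rintro _ ⟨x, hx, rfl⟩
    exact ⟨_, swap_le_CycB i hb hx, by simp⟩

open Classical in
theorem Sys.face_CycB {G : Type*} [Group G] {k : ℕ} {Γ : Type*} [Fintype Γ]
    {τ : Γ → Fin (k + 1) → G} {c : Γ → ℚ} {γ₀ : Γ} (h : Sys τ c γ₀) (d : Fin k → Subgroup G)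
    (i : Fin (k + 1)) : ∑ γ, ∑ π : Equiv.Perm (Fin (k + 1)),
      c γ * ((Equiv.Perm.sign π : ℤ) : ℚ) *
        (if (fun a => flag (τ γ ∘ π) (i.succAbove a)) = d then 1 else 0) = 0 := by
  rcases Fin.eq_castSucc_or_eq_last i with ⟨i, rfl⟩ | rfl
  · refine Finset.sum_eq_zero fun γ _ => ?_
    have h1 := Equiv.sum_comp (Equiv.mulRight (Equiv.swap i.castSucc i.succ))
      fun π : Equiv.Perm (Fin (k + 1)) => c γ * ((Equiv.Perm.sign π : ℤ) : ℚ) *
        (if (fun a => flag (τ γ ∘ π) (i.castSucc.succAbove a)) = d then 1 else 0)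
    have h2 : ∀ π : Equiv.Perm (Fin (k + 1)), (fun a => flag (τ γ ∘
        (π * Equiv.swap i.castSucc i.succ : Equiv.Perm (Fin (k + 1)))) (i.castSucc.succAbove a)) =
        fun a => flag (τ γ ∘ π) (i.castSucc.succAbove a) := fun π =>
      funext fun a => flag_swap_CycB _ π i (Fin.succAbove_ne _ a)
    simp only [Equiv.coe_mulRight, h2, Equiv.Perm.sign_mul,
      Equiv.Perm.sign_swap i.castSucc_lt_succ.ne, mul_neg, mul_one, Units.val_neg, Int.cast_neg,
      neg_mul, Finset.sum_neg_distrib] at h1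
    linarith
  · rw [Finset.sum_comm]
    refine Finset.sum_eq_zero fun π _ => ?_
    have h1 := h.face (π (Fin.last k))
      (fun t => if (fun a => flag (t ∘ π) ((Fin.last k).succAbove a)) = d then 1 else 0)
      fun t t' ht => by
        have h2 : (fun a => flag (t ∘ π) ((Fin.last k).succAbove a)) =
            fun a => flag (t' ∘ π) ((Fin.last k).succAbove a) := funext fun a => by
          unfold flag
          refine congrArg _ (Set.image_congr fun x hx => ht _ fun e => ?_)
          rw [π.injective e, Fin.succAbove_last] at hx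
          exact (Fin.castSucc_lt_last a).not_ge hx
        rw [h2]
    have h3 := congrArg (((Equiv.Perm.sign π : ℤ) : ℚ) * ·) h1
    simp only [Finset.mul_sum, mul_zero] at h3
    exact (Finset.sum_congr rfl fun γ _ => by ring).trans h3

theorem Sys.bd_cyc {G : Type*} [Group G] {k : ℕ} {Γ : Type*} [Fintype Γ]
    {τ : Γ → Fin (k + 1) → G} {c : Γ → ℚ} {γ₀ : Γ} (h : Sys τ c γ₀) : bd 2 G k h.cyc = 0 := by
  classical
  ext d
  have h1 : ∀ (γ : Γ) (π : Equiv.Perm (Fin (k + 1))) (i : Fin (k + 1)),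
      (Finsupp.single (Chain.face ⟨flag (τ γ ∘ π), h.chain γ π⟩ i) (1 : ℚ)) d =
        if (fun a => flag (τ γ ∘ π) (i.succAbove a)) = d.1 then 1 else 0 := fun γ π i => by
    rw [Finsupp.single_apply]
    exact if_congr Subtype.ext_iff rfl rfl
  have h0 : ∀ (q : ℚ) (e : Chain 2 G (k + 1)), bd 2 G k (q • Finsupp.single e (1 : ℚ)) d =
      ∑ i : Fin (k + 1), q * ((-1 : ℚ) ^ (i : ℕ) * (Finsupp.single (e.face i) (1 : ℚ)) d) :=
    fun q e => by
      rw [map_smul, bd, Finsupp.linearCombination_single, one_smul, Finsupp.smul_apply,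
        Finsupp.finsetSum_apply, smul_eq_mul, Finset.mul_sum]
      rfl
  have h3 : bd 2 G k h.cyc d = ∑ γ, ∑ π : Equiv.Perm (Fin (k + 1)), ∑ i : Fin (k + 1),
      c γ * ((Equiv.Perm.sign π : ℤ) : ℚ) * ((-1 : ℚ) ^ (i : ℕ) *
        if (fun a => flag (τ γ ∘ π) (i.succAbove a)) = d.1 then 1 else 0) := by
    obtain ⟨e, he⟩ : ∃ e : Γ → Equiv.Perm (Fin (k + 1)) → Chain 2 G (k + 1),
        e = fun γ π => ⟨flag (τ γ ∘ π), h.chain γ π⟩ := ⟨_, rfl⟩
    have hc : h.cyc = ∑ γ, ∑ π : Equiv.Perm (Fin (k + 1)),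
        (c γ * ((Equiv.Perm.sign π : ℤ) : ℚ)) • Finsupp.single (e γ π) (1 : ℚ) := by
      rw [he]
      rfl
    rw [hc, map_sum, Finsupp.finsetSum_apply]
    refine Finset.sum_congr rfl fun γ _ => ?_
    rw [map_sum, Finsupp.finsetSum_apply]
    refine Finset.sum_congr rfl fun π _ => ?_
    rw [h0, he]
    exact Finset.sum_congr rfl fun i _ => by rw [← h1]
  rw [h3, Finsupp.zero_apply]
  have h2 : ∑ i : Fin (k + 1), (-1 : ℚ) ^ (i : ℕ) * ∑ γ, ∑ π : Equiv.Perm (Fin (k + 1)),
      c γ * ((Equiv.Perm.sign π : ℤ) : ℚ) *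
        (if (fun a => flag (τ γ ∘ π) (i.succAbove a)) = d.1 then 1 else 0) = 0 :=
    Finset.sum_eq_zero fun i _ => by rw [h.face_CycB d.1 i, mul_zero]
  refine Eq.trans ?_ h2
  simp only [Finset.mul_sum]
  rw [Finset.sum_comm (s := (Finset.univ : Finset (Fin (k + 1))))]
  refine Finset.sum_congr rfl fun γ _ => ?_
  rw [Finset.sum_comm (s := (Finset.univ : Finset (Fin (k + 1))))]
  exact Finset.sum_congr rfl fun π _ => Finset.sum_congr rfl fun i _ => by ring

end Vale.Agent.P240
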