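import Vale.Agent.P240.CycA

/-! P240 CycC. The chain is nonzero. Plan: evaluate at the chain flag (tau gamma0). A term
(gamma, pi) with c gamma nonzero and the same flag has the same top group (for m = 0 both ranges are
empty), tau gamma (pi j) lies in flag (tau gamma0) j, so pi j <= j by det1, pi = 1, and
c gamma = c gamma0 by det2. So the value is N * c gamma0 with N >= 1: after multiplying by c gamma0
every term is nonnegative and the term (gamma0, 1) is positive. -/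

namespace Vale.Agent.P240

open Matrix

theorem top_CycC {G : Type*} [Group G] {m : ℕ} {t t' : Fin m → G} (h : flag t = flag t') :
    Subgroup.closure (Set.range t) = Subgroup.closure (Set.range t') := by
  cases m with
  | zero => rw [Set.range_eq_empty t, Set.range_eq_empty t']
  | succ m =>
    have h1 := congrFun h ⊤
    rwa [flag, flag, Set.Iic_top, Set.image_univ, Set.image_univ] at h1

theorem perm_CycC {m : ℕ} {π : Equiv.Perm (Fin m)} (h : ∀ j, π j ≤ j) : π = 1 := by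
  have h1 : ∑ j, ((π j : Fin m) : ℕ) = ∑ j : Fin m, (j : ℕ) :=
    Equiv.sum_comp π fun j : Fin m => (j : ℕ)
  have h2 := (Finset.sum_eq_sum_iff_of_le fun j _ => Fin.le_def.1 (h j)).1 h1
  exact Equiv.ext fun j => Fin.ext (h2 j (Finset.mem_univ j))

theorem key_CycC {G : Type*} [Group G] {m : ℕ} {Γ : Type*} [Fintype Γ]
    {τ : Γ → Fin m → G} {c : Γ → ℚ} {γ₀ : Γ} (h : Sys τ c γ₀) {γ : Γ} {π : Equiv.Perm (Fin m)}
    (hc : c γ ≠ 0) (e : flag (τ γ ∘ π) = flag (τ γ₀)) : π = 1 ∧ c γ = c γ₀ := by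
  have h1 := top_CycC e
  rw [π.surjective.range_comp] at h1
  have h2 : ∀ j, τ γ (π j) ∈ Subgroup.closure (τ γ₀ '' Set.Iic j) := fun j => by
    have h3 : τ γ (π j) ∈ flag (τ γ ∘ π) j := Subgroup.subset_closure ⟨j, Set.mem_Iic.2 le_rfl, rfl⟩
    rw [e] at h3
    exact h3
  have h3 : π = 1 := perm_CycC fun j => h.det1 γ hc h1 j _ (h2 j)
  subst h3
  exact ⟨rfl, h.det2 γ hc h1 h2⟩

theorem Sys.cyc_ne {G : Type*} [Group G] {m : ℕ} {Γ : Type*} [Fintype Γ]
    {τ : Γ → Fin m → G} {c : Γ → ℚ} {γ₀ : Γ} (h : Sys τ c γ₀) : h.cyc ≠ 0 := by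
  classical
  intro h0
  obtain ⟨ch, hch, e0⟩ : ∃ ch : Γ → Equiv.Perm (Fin m) → Chain 2 G m,
      (∀ γ π, (ch γ π).1 = flag (τ γ ∘ π)) ∧ h.cyc = ∑ γ, ∑ π : Equiv.Perm (Fin m),
        (c γ * ((Equiv.Perm.sign π : ℤ) : ℚ)) • Finsupp.single (ch γ π) (1 : ℚ) :=
    ⟨fun γ π => ⟨flag (τ γ ∘ π), h.chain γ π⟩, fun _ _ => rfl, rfl⟩
  rw [e0] at h0
  have h1 := DFunLike.congr_fun h0 (ch γ₀ 1)
  simp only [Finsupp.finsetSum_apply, Finsupp.smul_apply, smul_eq_mul, Finsupp.single_apply,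
    Finsupp.zero_apply] at h1
  have h2 := congrArg (fun x => c γ₀ * x) h1
  simp only [Finset.mul_sum, mul_zero] at h2
  have hpos : 0 < c γ₀ * c γ₀ := mul_self_pos.2 h.ne
  have hnn : ∀ (γ : Γ) (π : Equiv.Perm (Fin m)),
      0 ≤ c γ₀ * (c γ * ((Equiv.Perm.sign π : ℤ) : ℚ) * if ch γ π = ch γ₀ 1 then 1 else 0) := by
    intro γ π
    split_ifs with e
    · by_cases hc : c γ = 0
      · simp [hc]
      · obtain ⟨rfl, e2⟩ := key_CycC h hc
          ((hch γ π).symm.trans ((congrArg Subtype.val e).trans (hch γ₀ 1)))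
        simpa [e2] using hpos.le
    · simp
  refine absurd h2 (ne_of_gt ?_)
  refine Finset.sum_pos' (fun γ _ => Finset.sum_nonneg fun π _ => hnn γ π)
    ⟨γ₀, Finset.mem_univ _, Finset.sum_pos' (fun π _ => hnn γ₀ π) ⟨1, Finset.mem_univ _, ?_⟩⟩
  rw [if_pos rfl]
  simpa using h.ne

end Vale.Agent.P240
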