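import Vale.Agent.P240.DetA

/-! P240 DetB. Detection. Plan: sigma from mono_of_eq; g (sigma j) j ^ 2 = 1 by orthogonality, so
wt psi z g = psi (fun j => z (sigma j) ^ 2); the colours force sigma last = last.
g * rho j' * g⁻¹ = dg (fun i => if sigma.symm i <= j'.castSucc then -1 else 1). By lift_mem an
element x with mk x in closure (tau 1 '' Iic j) is diagonal with x i i = x last last for
i > j.castSucc. Hence sigma a <= j.castSucc for all a <= j'.castSucc; count (Fin.card_Iic) to get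
j' <= j; in the second part sigma a <= a for all a, so sigma = 1. -/

namespace Vale.Agent.P240

open Matrix

/-- The matrices that commute with a given one. -/
def com_DetB {n : ℕ} {F : Type*} [Field F] (P : Matrix (Fin n) (Fin n) F) :
    Subgroup (GL (Fin n) F) where
  carrier := {x | Commute (x : Matrix (Fin n) (Fin n) F) P}
  one_mem' := Commute.one_left P
  mul_mem' ha hb := Commute.mul_left ha hb
  inv_mem' ha := Commute.units_inv_left ha

theorem cen_DetB {n : ℕ} {F : Type*} [Field F] (P : Matrix (Fin n) (Fin n) F) :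
    Subgroup.center (GL (Fin n) F) ≤ com_DetB P := fun x hx => by
  obtain ⟨c, hc⟩ := Matrix.GeneralLinearGroup.mem_center_iff_val_mem_range_scalar.1 hx
  show Commute (x : Matrix (Fin n) (Fin n) F) P
  rw [← hc]
  exact scalar_commute c (fun _ => mul_comm _ _) P

theorem key_DetB {m : ℕ} {F : Type*} [Field F] (h2 : (2 : F) ≠ 0) (g : OG (m + 1) F)
    {σ : Equiv.Perm (Fin (m + 1))} (hσ : ∀ i j, i ≠ σ j →
      ((g : GL (Fin (m + 1)) F) : Matrix (Fin (m + 1)) (Fin (m + 1)) F) i j = 0)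
    (h0 : ∀ j, ((g : GL (Fin (m + 1)) F) : Matrix (Fin (m + 1)) (Fin (m + 1)) F) (σ j) j ≠ 0)
    (hl : σ (Fin.last m) = Fin.last m) {j j' : Fin m}
    (h : tau m F g j' ∈ Subgroup.closure (tau m F 1 '' Set.Iic j)) {a : Fin (m + 1)}
    (ha : a ≤ j'.castSucc) : σ a ≤ j.castSucc := by
  refine not_lt.1 fun hlt => ?_
  have e : tau m F 1 '' Set.Iic j = ProjGenLinGroup.mk '' (rho m F '' Set.Iic j) := by
    rw [Set.image_image]
    refine Set.image_congr fun k _ => ?_
    simp [tau]
  rw [e] at h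
  have h1 := lift_mem (com_DetB (single (σ a) (Fin.last m) (1 : F))) (cen_DetB _) (by
    rintro _ ⟨k, hk, rfl⟩
    have hk1 : ¬ σ a ≤ k.castSucc := not_le.2 ((Fin.castSucc_le_castSucc_iff.2 hk).trans_lt hlt)
    have hk2 : ¬ Fin.last m ≤ k.castSucc := not_le.2 (Fin.castSucc_lt_last k)
    show diagonal _ * _ = _ * diagonal _
    ext i i'
    rw [diagonal_mul, mul_diagonal, single_apply]
    split_ifs with h3
    · obtain ⟨rfl, rfl⟩ := h3
      simp [hk1, hk2]
    all_goals simp) h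
  set x := (g : GL (Fin (m + 1)) F) * rho m F j' * (g : GL (Fin (m + 1)) F)⁻¹ with hx
  have h3 : (x : Matrix (Fin (m + 1)) (Fin (m + 1)) F) (σ a) (σ a) =
      (x : Matrix (Fin (m + 1)) (Fin (m + 1)) F) (Fin.last m) (Fin.last m) := by
    have h4 : (x : Matrix (Fin (m + 1)) (Fin (m + 1)) F) * single (σ a) (Fin.last m) (1 : F) =
      single (σ a) (Fin.last m) (1 : F) * (x : Matrix (Fin (m + 1)) (Fin (m + 1)) F) := h1
    have h5 := congrFun (congrFun h4 (σ a)) (Fin.last m)
    rwa [mul_single_apply_same, single_mul_apply_same, mul_one, one_mul] at h5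
  have h4 : ∀ b, (x : Matrix (Fin (m + 1)) (Fin (m + 1)) F) (σ b) (σ b) =
      ((if b ≤ j'.castSucc then -1 else 1 : Fˣ) : F) := fun b => by
    have h5 : x * (g : GL (Fin (m + 1)) F) = g * rho m F j' := by
      rw [hx, inv_mul_cancel_right]
    have h7 := congrArg Units.val h5
    rw [Units.val_mul, Units.val_mul] at h7
    have h6 := congrFun (congrFun h7 (σ b)) b
    rw [mul_apply, Finset.sum_eq_single (σ b)
      (fun i _ hi => by rw [hσ i b hi, mul_zero]) (fun hn => absurd (Finset.mem_univ _) hn)] at h6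
    refine mul_right_cancel₀ (h0 b) (h6.trans ?_)
    show (_ * diagonal _ : Matrix (Fin (m + 1)) (Fin (m + 1)) F) _ _ = _
    rw [mul_diagonal, mul_comm]
  have h5 := h4 (Fin.last m)
  rw [hl, ← h3, h4, if_pos ha, if_neg (not_le.2 (Fin.castSucc_lt_last j'))] at h5
  refine h2 ?_
  rw [Units.val_neg, Units.val_one] at h5
  linear_combination -h5

theorem tau_det {m : ℕ} {F : Type*} [Field F] (h2 : (2 : F) ≠ 0) {X₀ X₁ : Finset F}
    (hX : Disjoint X₀ X₁) {ψ : (Fin (m + 1) → F) → ℚ} {z : Fin (m + 1) → F}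
    (hz : ψ (fun i => z i ^ 2) ≠ 0)
    (hψ : ∀ x, ψ x ≠ 0 → x (Fin.last m) ∈ X₀ ∧ ∀ k : Fin m, x k.castSucc ∈ X₁)
    (g : OG (m + 1) F) (hg : wt ψ z g ≠ 0)
    (hE : Subgroup.closure (Set.range (tau m F g)) = Subgroup.closure (Set.range (tau m F 1))) :
    (∀ j j', tau m F g j' ∈ Subgroup.closure (tau m F 1 '' Set.Iic j) → j' ≤ j) ∧
      ((∀ j, tau m F g j ∈ Subgroup.closure (tau m F 1 '' Set.Iic j)) →
        wt ψ z g = wt ψ z (1 : OG (m + 1) F)) := by
  obtain ⟨σ, hσ⟩ := mono_of_eq h2 g hE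
  have h1 : ∀ j, ((g : GL (Fin (m + 1)) F) : Matrix (Fin (m + 1)) (Fin (m + 1)) F) (σ j) j ^ 2 =
      1 := fun j => by
    have h3 := congrFun (congrFun g.2 j) j
    rwa [mul_apply, one_apply_eq, Finset.sum_eq_single (σ j)
      (fun i _ hi => by rw [hσ i j hi, mul_zero]) (fun hn => absurd (Finset.mem_univ _) hn),
      transpose_apply, ← sq] at h3
  have h0 : ∀ j, ((g : GL (Fin (m + 1)) F) : Matrix (Fin (m + 1)) (Fin (m + 1)) F) (σ j) j ≠ 0 :=
    fun j e => by
      have := h1 j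
      rw [e, zero_pow two_ne_zero] at this
      exact zero_ne_one this
  have hw : wt ψ z g = ψ fun j => z (σ j) ^ 2 := by
    refine congrArg ψ (funext fun j => ?_)
    rw [mulVec, dotProduct, Finset.sum_eq_single (σ j)
      (fun i _ hi => by rw [transpose_apply, hσ i j hi, zero_mul])
      (fun hn => absurd (Finset.mem_univ _) hn), transpose_apply, mul_pow, h1, one_mul]
  have hl : σ (Fin.last m) = Fin.last m := by
    by_contra hn
    obtain ⟨k, hk⟩ := Fin.exists_castSucc_eq.2 hn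
    have h3 := (hψ _ (hw ▸ hg)).1
    beta_reduce at h3
    rw [← hk] at h3
    exact Finset.disjoint_left.1 hX h3 ((hψ _ hz).2 k)
  refine ⟨fun j j' h => ?_, fun h => ?_⟩
  · have h3 : (Finset.Iic j'.castSucc).card ≤ (Finset.Iic j.castSucc).card :=
      Finset.card_le_card_of_injOn σ (fun a ha => Finset.mem_coe.2 (Finset.mem_Iic.2
        (key_DetB h2 g hσ h0 hl h (Finset.mem_Iic.1 (Finset.mem_coe.1 ha))))) σ.injective.injOn
    rw [Fin.card_Iic, Fin.card_Iic] at h3
    exact Fin.le_def.2 (Nat.le_of_succ_le_succ h3)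
  · have h3 : ∀ a, (σ a : ℕ) ≤ a := fun a => by
      rcases Fin.eq_castSucc_or_eq_last a with ⟨k, rfl⟩ | rfl
      · exact key_DetB h2 g hσ h0 hl (h k) le_rfl
      · rw [hl]
    have h4 := (Finset.sum_eq_sum_iff_of_le fun a _ => h3 a).1
      (Equiv.sum_comp σ fun a => (a : ℕ))
    rw [hw]
    refine congrArg ψ (funext fun j => ?_)
    rw [Fin.ext (h4 j (Finset.mem_univ j))]
    simp

end Vale.Agent.P240
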