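import Vale.Agent.P240.RankB

/-! P240 RankC. The 2-rank of PGL. Plan: L = AlgebraicClosure K, I with I * I = -1. Let A be the set
of endomorphisms kappa • toLin' (g.map algebraMap) of Fin n to L with g in GL n K, mk g in E, kappa
in L, whose square is 1 or -1. For e in E pick g with mk g = e, g * g = scalar mu, lambda with
lambda^2 mu = 1; A is the image of the injective map (e, zeta) to zeta lambda g, zeta in
{1, I, -1, -I}, so card A = 4 card E. Lifts commute up to a scalar s with s * s = 1 (conjugate and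
square), which gives comm, and then sq for products. Apply rankB. -/

namespace Vale.Agent.P240

open Matrix

theorem mk_RankC {L : Type*} [Field L] {n : ℕ} {g g' : GL (Fin n) L} :
    ProjGenLinGroup.mk g = ProjGenLinGroup.mk g' ↔ ∃ u : L, u ≠ 0 ∧
      toLinAlgEquiv' (g' : Matrix (Fin n) (Fin n) L) =
        u • toLinAlgEquiv' (g : Matrix (Fin n) (Fin n) L) := by
  have key : ∀ u : Lˣ, ((g * GeneralLinearGroup.scalar (Fin n) u : GL (Fin n) L) :
      Matrix (Fin n) (Fin n) L) = (u : L) • (g : Matrix (Fin n) (Fin n) L) := fun u => by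
    ext i j
    simp [GeneralLinearGroup.scalar, Matrix.mul_diagonal, mul_comm]
  rw [ProjGenLinGroup.mk_eq_mk_iff]
  constructor
  · rintro ⟨u, rfl⟩
    exact ⟨u, u.ne_zero, by rw [key, map_smul]⟩
  · rintro ⟨u, hu, h⟩
    rw [← map_smul] at h
    exact ⟨Units.mk0 u hu, Units.ext ((key _).trans (toLinAlgEquiv'.injective h).symm)⟩

theorem alg_RankC {L R : Type*} [Field L] [Ring R] [Algebra L R] [Nontrivial R] {a b c : R}
    {s s' : L} (ha : a * a = 1) (hb : b * b = 1) (hc : c * c = 1) (h : a * b = s • c)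
    (h' : b * a = s' • c) : (s * s = 1 ∧ s' = s) ∨ (s * s = -1 ∧ s' = -s) := by
  have inj : ∀ x : L, x • (1 : R) = 1 → x = 1 := fun x hx =>
    smul_left_injective L one_ne_zero (hx.trans (one_smul L (1 : R)).symm)
  have h1 : s * s' = 1 := inj _ (by
    rw [← hc, ← smul_mul_smul_comm, ← h, ← h', mul_assoc, ← mul_assoc b, hb, one_mul, ha, hc])
  have h2 : b * a = (s' * s') • (a * b) := by
    rw [h, h', smul_smul, mul_assoc, mul_comm s' s, h1, mul_one]
  have h3 : (s' * s') * (s' * s') = 1 := inj _ (by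
    have e : b * a * a * b = ((s' * s') * (s' * s')) • (a * a * (b * b)) := by
      rw [h2, smul_mul_assoc, mul_assoc a, h2]
      simp only [mul_smul_comm, smul_mul_assoc, smul_smul, mul_assoc]
    rw [mul_assoc b, ha, mul_one, hb, mul_one] at e
    exact e.symm)
  rcases mul_self_eq_one_iff.1 h3 with e | e
  · exact Or.inl ⟨by linear_combination (s * s' + 1) * h1 - s * s * e,
      by linear_combination s * e - s' * h1⟩
  · exact Or.inr ⟨by linear_combination s * s * e - (s * s' + 1) * h1,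
      by linear_combination s * e - s' * h1⟩

theorem closed_RankC {L : Type*} [Field L] [IsAlgClosed L] (h2 : (2 : L) ≠ 0) {n : ℕ} (h0 : 0 < n)
    (hn2 : n ≠ 2) (hn4 : n ≠ 4) (E : Subgroup (ProjGenLinGroup (Fin n) L)) [Finite E]
    (comm : ∀ x ∈ E, ∀ y ∈ E, x * y = y * x) (sq : ∀ x ∈ E, x ^ 2 = 1) :
    Nat.card E ≤ 2 ^ (n - 1) := by
  classical
  have : Nonempty (Fin n) := ⟨⟨0, h0⟩⟩
  have := Fintype.ofFinite E
  obtain ⟨I, hI⟩ := IsAlgClosed.exists_eq_mul_self (-1 : L)
  let ψ : GL (Fin n) L → Module.End L (Fin n → L) := fun g => toLinAlgEquiv' g.val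
  have ψm : ∀ g g', ψ (g * g') = ψ g * ψ g' := fun g g' => by simp only [ψ, Units.val_mul, map_mul]
  have ψ1 : ψ 1 = 1 := by simp only [ψ, Units.val_one, map_one]
  have ex : ∀ e : E, ∃ g, ProjGenLinGroup.mk g = e ∧ ψ g * ψ g = 1 := fun e => by
    obtain ⟨g, hg⟩ := ProjGenLinGroup.mk_surjective e.1
    obtain ⟨u, hu⟩ := (ProjGenLinGroup.mk_eq_mk_iff (g₁ := g * g) (g₂ := 1)).1 (by
      rw [map_mul, hg, ← pow_two, sq _ e.2, map_one])
    obtain ⟨w, hw⟩ := IsAlgClosed.exists_eq_mul_self (u : L)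
    have w0 : w ≠ 0 := fun k => u.ne_zero (by rw [hw, k, mul_zero])
    have c1 : GeneralLinearGroup.scalar (Fin n) (Units.mk0 w w0) ∈ Subgroup.center _ :=
      ProjGenLinGroup.mk_eq_one.1 (ProjGenLinGroup.mk_scalar _)
    refine ⟨g * GeneralLinearGroup.scalar (Fin n) (Units.mk0 w w0), ?_, ?_⟩
    · rw [map_mul, ProjGenLinGroup.mk_scalar, mul_one, hg]
    · rw [← ψm, ← ψ1, ← hu, mul_assoc, ← mul_assoc _ g, ← Subgroup.mem_center_iff.1 c1 g,
        mul_assoc g, ← map_mul, ← mul_assoc,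
        show Units.mk0 w w0 * Units.mk0 w w0 = u from Units.ext hw.symm]
  choose r hr hr' using ex
  have prod : ∀ e e' : E, ∃ s : L, ψ (r e) * ψ (r e') = s • ψ (r (e * e')) := fun e e' => by
    obtain ⟨u, -, hu⟩ := (mk_RankC (g := r (e * e')) (g' := r e * r e')).1 (by
      rw [map_mul, hr, hr, hr, Subgroup.coe_mul])
    exact ⟨u, (ψm _ _).symm.trans hu⟩
  choose s hs using prod
  have key : ∀ e e' : E, (s e e' * s e e' = 1 ∧ ψ (r e') * ψ (r e) = ψ (r e) * ψ (r e')) ∨
      (s e e' * s e e' = -1 ∧ ψ (r e') * ψ (r e) = -(ψ (r e) * ψ (r e'))) := fun e e' => by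
    have a1 := hs e' e
    rw [show e' * e = e * e' from Subtype.ext (comm _ e'.2 _ e.2)] at a1
    refine (alg_RankC (hr' e) (hr' e') (hr' _) (hs e e') a1).imp (fun k => ⟨k.1, ?_⟩)
      fun k => ⟨k.1, ?_⟩
    · rw [a1, hs, k.2]
    · rw [a1, hs, k.2]
      exact neg_smul (s e e') (ψ (r (e * e')))
  let T : Finset L := {1, -1, I, -I}
  have hT : ∀ z, z ∈ T ↔ z * z = 1 ∨ z * z = -1 := fun z => by
    rw [hI, mul_self_eq_one_iff, mul_self_eq_mul_self_iff]
    simp only [T, Finset.mem_insert, Finset.mem_singleton, or_assoc]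
  have Tm : ∀ x ∈ T, ∀ y ∈ T, x * y ∈ T := fun x hx y hy => by
    rw [hT] at *
    rw [mul_mul_mul_comm]
    rcases hx with hx | hx <;> rcases hy with hy | hy <;> simp [hx, hy]
  have T0 : ∀ x ∈ T, x ≠ 0 := fun x hx k => by simpa [k] using (hT x).1 hx
  have n1 : ∀ x : L, x ≠ 0 → x ≠ -x := fun x hx k =>
    mul_ne_zero h2 hx (by linear_combination k)
  have n2 : ∀ x y : L, x * x = 1 → y * y = -1 → x ≠ y := fun x y hx hy k =>
    n1 1 one_ne_zero (by rw [← hy, ← k, hx])
  have I0 : I ≠ 0 := T0 I (by simp [T])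
  have Tc : T.card = 4 := Finset.card_eq_four.2 ⟨1, -1, I, -I, n1 1 one_ne_zero,
    n2 _ _ (by simp) hI.symm, n2 _ _ (by simp) (by simp [← hI]), n2 _ _ (by simp) hI.symm,
    n2 _ _ (by simp) (by simp [← hI]), n1 I I0, rfl⟩
  let φ : E × L → Module.End L (Fin n → L) := fun p => p.2 • ψ (r p.1)
  have mem : ∀ a, a ∈ (Finset.univ ×ˢ T).image φ ↔ ∃ e, ∃ z ∈ T, a = z • ψ (r e) := fun a => by
    simp only [Finset.mem_image, Finset.mem_product, Finset.mem_univ, true_and, Prod.exists, φ,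
      eq_comm]
  have inj : Set.InjOn φ (Finset.univ ×ˢ T : Finset (E × L)) := by
    rintro ⟨e, z⟩ hz ⟨e', z'⟩ hz' k
    have z0 := T0 z (Finset.mem_product.1 hz).2
    have z1 := T0 z' (Finset.mem_product.1 hz').2
    have k' : z • ψ (r e) = z' • ψ (r e') := k
    obtain rfl : e = e' := Subtype.ext (by
      rw [← hr, ← hr, mk_RankC]
      refine ⟨z'⁻¹ * z, mul_ne_zero (inv_ne_zero z1) z0, ?_⟩
      change ψ (r e') = (z'⁻¹ * z) • ψ (r e)
      rw [mul_smul, k', inv_smul_smul₀ z1])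
    rw [smul_left_injective L (left_ne_zero_of_mul_eq_one (hr' e)) k']
  have main := (rankB h2 hI.symm (V := Fin n → L) (by simp) h0 ((Finset.univ ×ˢ T).image φ)
    (fun a ha b hb => ?_) ?_ (fun a ha => ?_) fun a ha b hb => ?_).2 hn2 hn4
  · rw [Finset.card_image_of_injOn inj, Finset.card_product, Tc, Finset.card_univ] at main
    rw [Nat.card_eq_fintype_card]
    omega
  · obtain ⟨e, z, hz, rfl⟩ := (mem a).1 ha
    obtain ⟨e', z', hz', rfl⟩ := (mem b).1 hb
    refine (mem _).2 ⟨e * e', z * z' * s e e', Tm _ (Tm _ hz _ hz') _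
      ((hT _).2 ((key e e').imp And.left And.left)), ?_⟩
    rw [smul_mul_smul_comm, hs, smul_smul]
  · obtain ⟨u, -, hu⟩ := (mk_RankC (g := r 1) (g' := 1)).1 (by rw [hr, map_one, Subgroup.coe_one])
    have a1 : (1 : Module.End L (Fin n → L)) = u • ψ (r 1) := ψ1.symm.trans hu
    have a2 : u * u = 1 := smul_left_injective L (one_ne_zero (α := Module.End L (Fin n → L))) (by
      simp only
      rw [one_smul, ← hr' 1, ← smul_mul_smul_comm, ← a1, one_mul, hr'])
    refine (mem _).2 ⟨1, I * u, Tm _ (by simp [T]) _ ((hT _).2 (Or.inl a2)), ?_⟩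
    rw [mul_smul, ← a1]
  · obtain ⟨e, z, hz, rfl⟩ := (mem a).1 ha
    rw [smul_mul_smul_comm, hr']
    exact ((hT z).1 hz).imp (fun k => by rw [k, one_smul]) fun k => by
      rw [k]
      exact neg_one_smul L (1 : Module.End L (Fin n → L))
  · obtain ⟨e, z, hz, rfl⟩ := (mem a).1 ha
    obtain ⟨e', z', hz', rfl⟩ := (mem b).1 hb
    rw [smul_mul_smul_comm, smul_mul_smul_comm, mul_comm z' z]
    exact (key e' e).imp (fun k => by rw [k.2]) fun k => by rw [k.2, smul_neg]

theorem pgl_rank {K : Type*} [Field K] (h2 : (2 : K) ≠ 0) {n : ℕ} (h0 : 0 < n) (hn2 : n ≠ 2)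
    (hn4 : n ≠ 4) (E : Subgroup (ProjGenLinGroup (Fin n) K)) [Finite E]
    (comm : ∀ x ∈ E, ∀ y ∈ E, x * y = y * x) (sq : ∀ x ∈ E, x ^ 2 = 1) :
    Nat.card E ≤ 2 ^ (n - 1) := by
  let f := algebraMap K (AlgebraicClosure K)
  have gi : Function.Injective (GeneralLinearGroup.map (n := Fin n) f) := fun g g' k =>
    Units.ext (Matrix.ext fun i j => f.injective (congrArg (fun x => x.val i j) k))
  have inj : Function.Injective (ProjGenLinGroup.map (n := Fin n) f) := by
    rw [injective_iff_map_eq_one]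
    intro x hx
    obtain ⟨g, rfl⟩ := ProjGenLinGroup.mk_surjective x
    rw [ProjGenLinGroup.map_mk, ProjGenLinGroup.mk_eq_one, Subgroup.mem_center_iff] at hx
    rw [ProjGenLinGroup.mk_eq_one, Subgroup.mem_center_iff]
    exact fun y => gi (by rw [map_mul, map_mul, hx])
  have e := E.equivMapOfInjective _ inj
  have := Finite.of_equiv _ e.toEquiv
  rw [Nat.card_congr e.toEquiv]
  refine closed_RankC (fun k => h2 (f.injective (by rw [map_ofNat, map_zero, k]))) h0 hn2 hn4 _
    ?_ ?_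
  · rintro _ ⟨x, hx, rfl⟩ _ ⟨y, hy, rfl⟩
    rw [← map_mul, ← map_mul, comm x hx y hy]
  · rintro _ ⟨x, hx, rfl⟩
    rw [← map_pow, sq x hx, map_one]

end Vale.Agent.P240
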