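import Vale.Agent.P240.Sys

/-! P240 Key. The number of rotation relations. Plan: wuv u v depends only on u^2 + v^2 and on
whether (u, v) = 0. Nonzero norm nu: (u', v') is the rotation of (u, v) by
((u u' + v v') / nu, (v u' - u v') / nu); reparametrize circ by multiplication. Norm zero, u nonzero:
i = v / u, the pair is u (a + b i) (1, i) and a + b i runs bijectively over nonzero elements. Then
map Option F onto the image. -/

namespace Vale.Agent.P240

open Matrix

/-- The unit circle. -/
def circ (F : Type*) [Field F] [Fintype F] [DecidableEq F] : Finset (F × F) :=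
  Finset.univ.filter fun p => p.1 ^ 2 + p.2 ^ 2 = 1

/-- Number of rotations taking `(u, v)` to a vector with squared coordinates `(s, t)`. -/
def wuv {F : Type*} [Field F] [Fintype F] [DecidableEq F] (u v s t : F) : ℚ :=
  (((circ F).filter fun p => (p.1 * u + p.2 * v) ^ 2 = s ∧ (p.1 * v - p.2 * u) ^ 2 = t).card : ℚ)

lemma wuv_ne_Key {F : Type*} [Field F] [Fintype F] [DecidableEq F] (u v : F)
    (h : u ^ 2 + v ^ 2 ≠ 0) (s t : F) :
    wuv u v s t = ((Finset.univ.filter fun w : F × F =>
      w.1 ^ 2 + w.2 ^ 2 = u ^ 2 + v ^ 2 ∧ w.1 ^ 2 = s ∧ w.2 ^ 2 = t).card : ℚ) := by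
  unfold wuv
  congr 1
  refine Finset.card_bij' (fun p _ => (p.1 * u + p.2 * v, p.1 * v - p.2 * u))
    (fun w _ => ((w.1 * u + w.2 * v) / (u ^ 2 + v ^ 2), (w.1 * v - w.2 * u) / (u ^ 2 + v ^ 2)))
    ?_ ?_ ?_ ?_
  · intro p hp
    simp only [circ, Finset.mem_filter, Finset.mem_univ, true_and] at hp ⊢
    refine ⟨?_, hp.2.1, hp.2.2⟩
    linear_combination (u ^ 2 + v ^ 2) * hp.1
  · intro w hw
    simp only [circ, Finset.mem_filter, Finset.mem_univ, true_and] at hw ⊢
    obtain ⟨h1, h2, h3⟩ := hw
    have e1 : (w.1 * u + w.2 * v) / (u ^ 2 + v ^ 2) * u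
        + (w.1 * v - w.2 * u) / (u ^ 2 + v ^ 2) * v = w.1 := by
      field_simp
      ring
    have e2 : (w.1 * u + w.2 * v) / (u ^ 2 + v ^ 2) * v
        - (w.1 * v - w.2 * u) / (u ^ 2 + v ^ 2) * u = w.2 := by
      field_simp
      ring
    refine ⟨?_, by rw [e1, h2], by rw [e2, h3]⟩
    rw [div_pow, div_pow, ← add_div, div_eq_one_iff_eq (pow_ne_zero 2 h)]
    linear_combination (u ^ 2 + v ^ 2) * h1
  · intro p _
    ext
    · simp only
      field_simp
      ring
    · simp only
      field_simp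
      ring
  · intro w _
    ext
    · simp only
      field_simp
      ring
    · simp only
      field_simp
      ring

lemma wuv_zero_Key {F : Type*} [Field F] [Fintype F] [DecidableEq F] (h2 : (2 : F) ≠ 0) (u v : F)
    (h : u ^ 2 + v ^ 2 = 0) (hu : u ≠ 0) (s t : F) :
    wuv u v s t = ((Finset.univ.filter fun z : F =>
      z ≠ 0 ∧ z ^ 2 = s ∧ -z ^ 2 = t).card : ℚ) := by
  have hv : v ≠ 0 := by
    rintro rfl
    exact hu (by simpa using h)
  unfold wuv
  congr 1
  refine Finset.card_bij' (fun p _ => p.1 * u + p.2 * v)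
    (fun z _ => ((z + u ^ 2 / z) / (2 * u), (z - u ^ 2 / z) / (2 * v))) ?_ ?_ ?_ ?_
  · intro p hp
    simp only [circ, Finset.mem_filter, Finset.mem_univ, true_and] at hp ⊢
    obtain ⟨h1, h3, h4⟩ := hp
    refine ⟨?_, h3, ?_⟩
    · intro h0
      apply pow_ne_zero 2 hu
      linear_combination (p.1 * u - p.2 * v) * h0 - u ^ 2 * h1 + p.2 ^ 2 * h
    · linear_combination h4 - (p.1 ^ 2 + p.2 ^ 2) * h
  · intro z hz
    simp only [circ, Finset.mem_filter, Finset.mem_univ, true_and] at hz ⊢
    obtain ⟨h0, h3, h4⟩ := hz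
    have hvv : v ^ 2 = -u ^ 2 := by linear_combination h
    have e1 : (z + u ^ 2 / z) / (2 * u) * u + (z - u ^ 2 / z) / (2 * v) * v = z := by
      field_simp
      ring
    have e0 : ((z + u ^ 2 / z) / (2 * u)) ^ 2 + ((z - u ^ 2 / z) / (2 * v)) ^ 2 = 1 := by
      rw [div_pow, div_pow, mul_pow, mul_pow, hvv]
      field_simp
      ring
    refine ⟨e0, by rw [e1, h3], ?_⟩
    rw [← h4]
    nth_rewrite 5 [← e1]
    linear_combination (((z + u ^ 2 / z) / (2 * u)) ^ 2 + ((z - u ^ 2 / z) / (2 * v)) ^ 2) * h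
  · intro p hp
    simp only [circ, Finset.mem_filter, Finset.mem_univ, true_and] at hp
    obtain ⟨h1, -, -⟩ := hp
    have hm : (p.1 * u + p.2 * v) * (p.1 * u - p.2 * v) = u ^ 2 := by
      linear_combination u ^ 2 * h1 - p.2 ^ 2 * h
    have hz : p.1 * u + p.2 * v ≠ 0 := by
      intro h0
      rw [h0, zero_mul] at hm
      exact pow_ne_zero 2 hu hm.symm
    have e : u ^ 2 / (p.1 * u + p.2 * v) = p.1 * u - p.2 * v := by
      rw [div_eq_iff hz, ← hm, mul_comm]
    ext
    · simp only
      rw [e]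
      field_simp
      ring
    · simp only
      rw [e]
      field_simp
      ring
  · intro z hz
    simp only [Finset.mem_filter, Finset.mem_univ, true_and] at hz
    obtain ⟨h0, -, -⟩ := hz
    simp only
    field_simp
    ring

/-- The model family of relations. -/
def model_Key (F : Type*) [Field F] [Fintype F] [DecidableEq F] : Option F → F → F → ℚ
  | none => wuv 0 0
  | some n => fun s t =>
      if n = 0 then ((Finset.univ.filter fun z : F => z ≠ 0 ∧ z ^ 2 = s ∧ -z ^ 2 = t).card : ℚ)
      else ((Finset.univ.filter fun w : F × F =>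
        w.1 ^ 2 + w.2 ^ 2 = n ∧ w.1 ^ 2 = s ∧ w.2 ^ 2 = t).card : ℚ)

theorem key_card {F : Type*} [Field F] [Fintype F] [DecidableEq F] (h2 : (2 : F) ≠ 0) :
    (Finset.univ.image fun y : F × F => wuv y.1 y.2).card ≤ Fintype.card F + 1 := by
  have hsub : (Finset.univ.image fun y : F × F => wuv y.1 y.2)
      ⊆ Finset.univ.image (model_Key F) := by
    intro f hf
    obtain ⟨⟨u, v⟩, -, rfl⟩ := Finset.mem_image.1 hf
    by_cases h : u ^ 2 + v ^ 2 = 0
    · by_cases hu : u = 0
      · have hv : v = 0 := by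
          rw [hu] at h
          simpa using h
        refine Finset.mem_image.2 ⟨none, Finset.mem_univ _, ?_⟩
        rw [hu, hv]
        rfl
      · refine Finset.mem_image.2 ⟨some 0, Finset.mem_univ _, ?_⟩
        funext s t
        rw [wuv_zero_Key h2 u v h hu]
        simp only [model_Key, if_true]
    · refine Finset.mem_image.2 ⟨some (u ^ 2 + v ^ 2), Finset.mem_univ _, ?_⟩
      funext s t
      rw [wuv_ne_Key u v h]
      simp only [model_Key, if_neg h]
  calc _ ≤ (Finset.univ.image (model_Key F)).card := Finset.card_le_card hsub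
    _ ≤ (Finset.univ : Finset (Option F)).card := Finset.card_image_le
    _ = Fintype.card F + 1 := by rw [Finset.card_univ, Fintype.card_option]

end Vale.Agent.P240
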