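import Vale.Agent.P240.GS
import Vale.Agent.P240.Key

/-! P240 Psi. The weight function. Plan: X = image of squaring, 2 * card X >= card F + 1 (fibres have
at most two elements, the fibre of 0 one); X0 a subset with four elements, X1 = X minus X0; R = the
image finset of key_card as a type; gs; choose z with z i ^ 2 = x i; rewrite the sum over circ as
the double sum with weights wuv (Finset.sum_fiberwise / card_eq_sum_ones). -/

namespace Vale.Agent.P240

open Matrix

theorem sq_Psi {F : Type*} [Field F] [Fintype F] [DecidableEq F] :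
    Fintype.card F + 1 ≤ 2 * (Finset.univ.image fun a : F => a ^ 2).card := by
  have h1 : (Finset.univ.erase (0 : F)).card ≤
      2 * ((Finset.univ.erase (0 : F)).image fun a => a ^ 2).card := by
    refine Finset.card_le_mul_card_image _ 2 fun b hb => ?_
    obtain ⟨a, -, rfl⟩ := Finset.mem_image.mp hb
    refine (Finset.card_le_card (t := {a, -a}) fun c hc => ?_).trans Finset.card_le_two
    have h := sq_eq_sq_iff_eq_or_eq_neg.mp (Finset.mem_filter.mp hc).2
    simpa using h
  have h2 : (0 : F) ∉ (Finset.univ.erase (0 : F)).image fun a => a ^ 2 := by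
    intro h
    obtain ⟨a, ha, h0⟩ := Finset.mem_image.mp h
    exact (Finset.mem_erase.mp ha).1 (pow_eq_zero_iff two_ne_zero |>.mp h0)
  have h3 : insert 0 ((Finset.univ.erase (0 : F)).image fun a => a ^ 2) ⊆
      Finset.univ.image fun a : F => a ^ 2 := by
    refine Finset.insert_subset (Finset.mem_image.mpr ⟨0, Finset.mem_univ _, by simp⟩) ?_
    exact Finset.image_subset_image (Finset.subset_univ _)
  have h4 := Finset.card_le_card h3
  rw [Finset.card_insert_of_notMem h2] at h4
  rw [Finset.card_erase_of_mem (Finset.mem_univ _), Finset.card_univ] at h1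
  have h5 : 0 < Fintype.card F := Fintype.card_pos
  omega

theorem sum_Psi {F : Type*} [Field F] [Fintype F] [DecidableEq F] (u v : F) (φ : F → F → ℚ) :
    ∑ p ∈ circ F, φ ((p.1 * u + p.2 * v) ^ 2) ((p.1 * v - p.2 * u) ^ 2) =
      ∑ s, ∑ t, wuv u v s t * φ s t := by
  simp only [wuv, Finset.card_filter, Nat.cast_sum, Finset.sum_mul]
  symm
  refine (Finset.sum_congr rfl fun s _ => Finset.sum_comm).trans (Finset.sum_comm.trans ?_)
  refine Finset.sum_congr rfl fun p _ => ?_
  rw [Finset.sum_eq_single ((p.1 * u + p.2 * v) ^ 2), Finset.sum_eq_single ((p.1 * v - p.2 * u) ^ 2)]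
  · simp
  · intro t _ ht
    simp [ht.symm]
  · simp
  · intro s _ hs
    simp [hs.symm]
  · simp

theorem psi_exists {F : Type*} [Field F] [Fintype F] [DecidableEq F] (h2 : (2 : F) ≠ 0)
    (hq : 31 ≤ Fintype.card F) (m : ℕ) :
    ∃ (X₀ X₁ : Finset F) (ψ : (Fin (m + 1) → F) → ℚ) (z : Fin (m + 1) → F), Disjoint X₀ X₁ ∧
      ψ (fun i => z i ^ 2) ≠ 0 ∧
      (∀ x, ψ x ≠ 0 → x (Fin.last m) ∈ X₀ ∧ ∀ k : Fin m, x k.castSucc ∈ X₁) ∧
      ∀ (x : Fin (m + 1) → F) (k : Fin m) (u v : F), ∑ p ∈ circ F,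
        ψ (upd x k ((p.1 * u + p.2 * v) ^ 2) ((p.1 * v - p.2 * u) ^ 2)) = 0 := by
  have h1 := sq_Psi (F := F)
  have h3 := key_card h2
  obtain ⟨X₀, hX, h4⟩ := Finset.exists_subset_card_eq
    (s := Finset.univ.image fun a : F => a ^ 2) (n := 4) (by omega)
  have h5 := Finset.card_sdiff_add_card_eq_card hX
  obtain ⟨ψ, hψ, h6, h7⟩ := gs
    (fun ρ : (Finset.univ.image fun y : F × F => wuv y.1 y.2) => (ρ : F → F → ℚ)) X₀
    ((Finset.univ.image fun a : F => a ^ 2) \ X₀) (Finset.card_pos.mp (by omega))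
    (by rw [Fintype.card_coe, h4]; omega) m
  obtain ⟨x, hx⟩ := Function.ne_iff.mp hψ
  have h8 : ∀ i, ∃ a : F, a ^ 2 = x i := fun i => by
    have h9 : x i ∈ Finset.univ.image fun a : F => a ^ 2 := by
      refine Fin.lastCases (hX (h6 x hx).1) (fun k => ?_) i
      exact (Finset.mem_sdiff.mp ((h6 x hx).2 k)).1
    obtain ⟨a, -, ha⟩ := Finset.mem_image.mp h9
    exact ⟨a, ha⟩
  choose z hz using h8
  refine ⟨X₀, _, ψ, z, Finset.disjoint_sdiff, ?_, h6, fun y k u v => ?_⟩
  · rw [funext hz]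
    exact hx
  · rw [sum_Psi u v fun s t => ψ (upd y k s t)]
    exact h7 y k ⟨wuv u v, Finset.mem_image.mpr ⟨(u, v), Finset.mem_univ _, rfl⟩⟩

end Vale.Agent.P240
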