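import Vale.Agent.P240.Sys

/-! P240 Map. Transport of systems. Plan: MonoidHom.map_closure, Subgroup.map_injective,
Subgroup.mem_map_iff_mem; for of_map extend Phi along Function.invFun f; for reindex use
t comp e.symm and e.image_Iic. -/

namespace Vale.Agent.P240

open Matrix

theorem clo_Map {H G : Type*} [Group H] [Group G] {J : Type*} (f : H →* G) (t : J → H)
    (s : Set J) : Subgroup.closure ((fun j => f (t j)) '' s) =
      (Subgroup.closure (t '' s)).map f := by
  rw [MonoidHom.map_closure, Set.image_image]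

theorem clr_Map {H G : Type*} [Group H] [Group G] {J : Type*} (f : H →* G) (t : J → H) :
    Subgroup.closure (Set.range fun j => f (t j)) =
      (Subgroup.closure (Set.range t)).map f := by
  rw [← Set.image_univ, ← Set.image_univ, clo_Map]

theorem mem_Map {H G : Type*} [Group H] [Group G] {J : Type*} {f : H →* G}
    (hf : Function.Injective f) (t : J → H) (s : Set J) (x : H) :
    f x ∈ Subgroup.closure ((fun j => f (t j)) '' s) ↔ x ∈ Subgroup.closure (t '' s) := by
  rw [clo_Map, Subgroup.mem_map_iff_mem hf]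

theorem eq_Map {H G : Type*} [Group H] [Group G] {J : Type*} {f : H →* G}
    (hf : Function.Injective f) (t t' : J → H) :
    Subgroup.closure (Set.range fun j => f (t j)) = Subgroup.closure (Set.range fun j => f (t' j))
      ↔ Subgroup.closure (Set.range t) = Subgroup.closure (Set.range t') := by
  rw [clr_Map, clr_Map, (Subgroup.map_injective hf).eq_iff]

theorem Sys.map {H G : Type*} [Group H] [Group G] {J : Type*} [LinearOrder J] {Γ : Type*}
    [Fintype Γ] {τ : Γ → J → H} {c : Γ → ℚ} {γ₀ : Γ} (h : Sys τ c γ₀) (f : H →* G)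
    (hf : Function.Injective f) : Sys (fun γ j => f (τ γ j)) c γ₀ where
  sq γ j := by rw [← map_mul, h.sq, map_one]
  comm γ j j' := by rw [← map_mul, h.comm, map_mul]
  indep γ j := fun hh => h.indep γ j ((mem_Map hf _ _ _).1 hh)
  face j Φ hΦ := h.face j (fun t => Φ fun i => f (t i)) fun t t' ht =>
    hΦ _ _ fun j' hj' => congrArg f (ht j' hj')
  ne := h.ne
  det1 γ hc he j j' hm := h.det1 γ hc ((eq_Map hf _ _).1 he) j j' ((mem_Map hf _ _ _).1 hm)
  det2 γ hc he hm := h.det2 γ hc ((eq_Map hf _ _).1 he) fun j => (mem_Map hf _ _ _).1 (hm j)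

theorem Sys.of_map {H G : Type*} [Group H] [Group G] {J : Type*} [LinearOrder J] {Γ : Type*}
    [Fintype Γ] {τ : Γ → J → H} {c : Γ → ℚ} {γ₀ : Γ} (f : H →* G)
    (hf : Function.Injective f) (h : Sys (fun γ j => f (τ γ j)) c γ₀) : Sys τ c γ₀ where
  sq γ j := hf (by rw [map_mul, map_one]; exact h.sq γ j)
  comm γ j j' := hf (by rw [map_mul, map_mul]; exact h.comm γ j j')
  indep γ j := fun hh => h.indep γ j ((mem_Map hf _ _ _).2 hh)
  face j Φ hΦ := by
    have := h.face j (fun t => Φ fun i => Function.invFun f (t i)) fun t t' ht =>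
      hΦ _ _ fun j' hj' => congrArg (Function.invFun f) (ht j' hj')
    simpa only [Function.leftInverse_invFun hf _] using this
  ne := h.ne
  det1 γ hc he j j' hm := h.det1 γ hc ((eq_Map hf _ _).2 he) j j' ((mem_Map hf _ _ _).2 hm)
  det2 γ hc he hm := h.det2 γ hc ((eq_Map hf _ _).2 he) fun j => (mem_Map hf _ _ _).2 (hm j)

theorem Sys.reindex {G : Type*} [Group G] {J J' : Type*} [LinearOrder J] [LinearOrder J']
    {Γ : Type*} [Fintype Γ] {τ : Γ → J → G} {c : Γ → ℚ} {γ₀ : Γ} (h : Sys τ c γ₀)
    (e : J' ≃o J) : Sys (fun γ j => τ γ (e j)) c γ₀ := by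
  have h1 : ∀ (t : J → G) (j : J'), (fun i => t (e i)) '' Set.Iic j = t '' Set.Iic (e j) :=
    fun t j => by rw [← e.image_Iic, Set.image_image]
  have h2 : ∀ t : J → G, (Set.range fun i => t (e i)) = Set.range t := fun t =>
    e.surjective.range_comp t
  refine ⟨fun γ j => h.sq γ _, fun γ j j' => h.comm γ _ _, fun γ j hh => h.indep γ (e j) ?_,
    fun j Φ hΦ => ?_, h.ne, fun γ hc he j j' hm => ?_, fun γ hc he hm => ?_⟩
  · refine Subgroup.closure_mono ?_ hh
    rintro _ ⟨i, hi, rfl⟩
    exact ⟨e i, fun hh' => hi (e.injective hh'), rfl⟩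
  · exact h.face (e j) (fun t => Φ fun i => t (e i)) fun t t' ht =>
      hΦ _ _ fun j' hj' => ht _ fun hh => hj' (e.injective hh)
  · rw [h2, h2] at he
    rw [h1] at hm
    exact e.le_iff_le.1 (h.det1 γ hc he _ _ hm)
  · rw [h2, h2] at he
    refine h.det2 γ hc he fun j => ?_
    obtain ⟨i, rfl⟩ := e.surjective j
    rw [← h1]
    exact hm i

end Vale.Agent.P240
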