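import Vale.Agent.P240.Lift

/-! P240 DetA. A matrix giving the standard group is monomial. Plan: for a column v = g e_j the group
K of x in GL with x v in the span of v contains the centre and all g rho g⁻¹, so by lift_mem and hE
it contains every rho k (tau 1 k = mk (rho k)). If v had nonzero entries at i < i', take k with
k.castSucc = i: the eigenvalue is both -1 and 1. Columns are nonzero; sigma j = the position of the
nonzero entry, injective since distinct columns are orthogonal. -/

namespace Vale.Agent.P240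

open Matrix

/-- the stabiliser of the line through `v` -/
def K_DetA {n : ℕ} {F : Type*} [Field F] (v : Fin n → F) : Subgroup (GL (Fin n) F) where
  carrier := {x | ∃ c : Fˣ, (x : Matrix (Fin n) (Fin n) F) *ᵥ v = (c : F) • v}
  one_mem' := ⟨1, by simp⟩
  mul_mem' := by
    rintro a b ⟨c, hc⟩ ⟨c', hc'⟩
    exact ⟨c' * c, by rw [Units.val_mul, ← mulVec_mulVec, hc', mulVec_smul, hc, smul_smul,
      Units.val_mul]⟩
  inv_mem' := by
    rintro a ⟨c, hc⟩
    refine ⟨c⁻¹, ?_⟩
    have h := congrArg (fun w => ((c⁻¹ : Fˣ) : F) • ((a⁻¹ : GL (Fin n) F) :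
      Matrix (Fin n) (Fin n) F) *ᵥ w) hc
    simp only [mulVec_mulVec, Units.inv_mul, one_mulVec, mulVec_smul, smul_smul, one_smul] at h
    exact h.symm

theorem cen_DetA {n : ℕ} {F : Type*} [Field F] (v : Fin n → F) :
    Subgroup.center (GL (Fin n) F) ≤ K_DetA v := by
  rw [GeneralLinearGroup.center_eq_range_scalar]
  rintro _ ⟨c, rfl⟩
  refine ⟨c, funext fun i => ?_⟩
  exact mulVec_diagonal (fun _ => (c : F)) v i

theorem conj_DetA {n : ℕ} {F : Type*} [Field F] (g : GL (Fin n) F) (d : Fin n → Fˣ) (j : Fin n) :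
    g * dg d * g⁻¹ ∈ K_DetA ((g : Matrix (Fin n) (Fin n) F) *ᵥ Pi.single j 1) := by
  refine ⟨d j, ?_⟩
  rw [mulVec_mulVec, ← Units.val_mul, inv_mul_cancel_right, Units.val_mul, ← mulVec_mulVec,
    ← mulVec_smul]
  refine congrArg _ ((diagonal_mulVec_single _ j 1).trans ?_)
  rw [← Pi.single_smul, smul_eq_mul]

theorem mono_of_eq {m : ℕ} {F : Type*} [Field F] (h2 : (2 : F) ≠ 0) (g : OG (m + 1) F)
    (hE : Subgroup.closure (Set.range (tau m F g)) = Subgroup.closure (Set.range (tau m F 1))) :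
    ∃ σ : Equiv.Perm (Fin (m + 1)), ∀ i j, i ≠ σ j →
      ((g : GL (Fin (m + 1)) F) : Matrix (Fin (m + 1)) (Fin (m + 1)) F) i j = 0 := by
  have h1 : ∀ j i i', i < i' → ((g : GL (Fin (m + 1)) F) : Matrix (Fin (m + 1)) (Fin (m + 1)) F) i j ≠ 0 →
      ((g : GL (Fin (m + 1)) F) : Matrix (Fin (m + 1)) (Fin (m + 1)) F) i' j = 0 := by
    intro j i i' hi h0
    obtain ⟨k, rfl⟩ := Fin.exists_castSucc_eq.2 (Fin.ne_last_of_lt hi)
    have a1 : rho m F k ∈ K_DetA (((g : GL (Fin (m + 1)) F) :
        Matrix (Fin (m + 1)) (Fin (m + 1)) F) *ᵥ Pi.single j 1) := by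
      refine lift_mem _ (cen_DetA _) (S := Set.range fun k' =>
        (g : GL (Fin (m + 1)) F) * rho m F k' * (g : GL (Fin (m + 1)) F)⁻¹) ?_ ?_
      · rintro _ ⟨k', rfl⟩
        exact conj_DetA _ _ j
      · rw [← Set.range_comp]
        refine hE.ge (Subgroup.subset_closure ⟨k, ?_⟩)
        simp [tau]
    obtain ⟨c, hc⟩ := a1
    rw [mulVec_single_one] at hc
    have a2 := (mulVec_diagonal _ _ k.castSucc).symm.trans (congrFun hc k.castSucc)
    have a3 := (mulVec_diagonal _ _ i').symm.trans (congrFun hc i')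
    simp only [le_refl, if_true, if_neg hi.not_ge, Units.val_neg, Units.val_one, Pi.smul_apply,
      smul_eq_mul, col_apply] at a2 a3
    rw [← mul_right_cancel₀ h0 a2] at a3
    exact mul_left_cancel₀ h2 (by linear_combination a3)
  have hg : ∀ j j', ∑ i, ((g : GL (Fin (m + 1)) F) : Matrix (Fin (m + 1)) (Fin (m + 1)) F) i j *
      ((g : GL (Fin (m + 1)) F) : Matrix (Fin (m + 1)) (Fin (m + 1)) F) i j' =
      if j = j' then 1 else 0 := fun j j' =>
    (congrFun (congrFun g.2 j) j').trans (one_apply ..)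
  have h3 : ∀ j, ∃ i, ((g : GL (Fin (m + 1)) F) : Matrix (Fin (m + 1)) (Fin (m + 1)) F) i j ≠ 0 := by
    intro j
    by_contra h
    push Not at h
    have := hg j j
    simp [h] at this
  choose s hs using h3
  have h4 : ∀ i j, i ≠ s j →
      ((g : GL (Fin (m + 1)) F) : Matrix (Fin (m + 1)) (Fin (m + 1)) F) i j = 0 := by
    intro i j h
    rcases lt_or_gt_of_ne h with h | h
    · by_contra h0
      exact hs j (h1 j _ _ h h0)
    · exact h1 j _ _ h (hs j)
  have h5 : Function.Injective s := by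
    intro j j' h
    by_contra hj
    have a1 := hg j j'
    rw [if_neg hj, Finset.sum_eq_single (s j) (fun i _ hi => by rw [h4 i j hi, zero_mul])
      (fun hn => absurd (Finset.mem_univ _) hn)] at a1
    exact mul_ne_zero (hs j) (h ▸ hs j') a1
  exact ⟨Equiv.ofBijective s (Finite.injective_iff_bijective.1 h5), h4⟩

end Vale.Agent.P240
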