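import Vale.Agent.P240.Key

/-! P240 Face. Cancellation of faces. Plan: for p in circ let B p in OG be the rotation matrix in the
coordinates k.castSucc, k.succ (columns (a, b) and (-b, a)), the identity elsewhere; it commutes with
rho j for j different from k (rho j has equal entries at the two coordinates), so
tau (g * B p) j = tau g j. Reindex the sum by g to g * B p (Equiv.mulRight), average over p in circ
(nonempty: (1, 0)); transpose (g * B p) *ᵥ z = transpose (B p) *ᵥ y with y = transpose g *ᵥ z, whose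
squares are upd (squares of y) k .. .., so the inner sum vanishes by hpsi. -/

namespace Vale.Agent.P240

open Matrix

/-- The rotation in the coordinates `r`, `s`. -/
def rot_Face {ι F : Type*} [DecidableEq ι] [Field F] (r s : ι) (a b : F) : Matrix ι ι F :=
  Matrix.of fun i j => if i = r then (if j = r then a else if j = s then b else 0)
    else if i = s then (if j = r then -b else if j = s then a else 0) else if i = j then 1 else 0

theorem two_Face {ι F : Type*} [Fintype ι] [DecidableEq ι] [Field F] {r s : ι} (h : r ≠ s)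
    (a b : F) (y : ι → F) :
    ∑ j, (if j = r then a else if j = s then b else 0) * y j = a * y r + b * y s := by
  have h1 : ∀ j, (if j = r then a else if j = s then b else 0) * y j =
      (if j = r then a * y j else 0) + if j = s then b * y j else 0 := by
    intro j
    by_cases h1 : j = r
    · subst h1
      simp [h]
    · by_cases h2 : j = s <;> simp [h1, h2, h.symm]
  simp only [h1, Finset.sum_add_distrib, Finset.sum_ite_eq', Finset.mem_univ, if_true]

theorem mulVec_Face {ι F : Type*} [Fintype ι] [DecidableEq ι] [Field F] {r s : ι} (h : r ≠ s)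
    (a b : F) (y : ι → F) (i : ι) : (rot_Face r s a b *ᵥ y) i =
      if i = r then a * y r + b * y s else if i = s then a * y s - b * y r else y i := by
  simp only [rot_Face, mulVec, dotProduct, of_apply]
  by_cases h1 : i = r
  · simp only [if_pos h1, two_Face h]
  · by_cases h2 : i = s
    · simp only [if_neg h1, if_pos h2, two_Face h]
      ring
    · simp [if_neg h1, if_neg h2]

theorem tr_Face {ι F : Type*} [DecidableEq ι] [Field F] {r s : ι} (h : r ≠ s) (a b : F) :
    (rot_Face r s a b)ᵀ = rot_Face r s a (-b) := by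
  ext i j
  simp only [rot_Face, transpose_apply, of_apply]
  have h' := h.symm
  by_cases h1 : i = r <;> by_cases h2 : i = s <;> by_cases h3 : j = r <;> by_cases h4 : j = s <;>
    simp_all [eq_comm]

theorem mul_Face {ι F : Type*} [Fintype ι] [DecidableEq ι] [Field F] {r s : ι} (h : r ≠ s)
    {a b : F} (hab : a ^ 2 + b ^ 2 = 1) : rot_Face r s a b * rot_Face r s a (-b) = 1 := by
  refine Matrix.ext_iff_mulVec.2 fun y => funext fun i => ?_
  rw [← mulVec_mulVec, one_mulVec]
  simp only [mulVec_Face h, if_true, if_neg h.symm]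
  by_cases h1 : i = r
  · rw [if_pos h1, h1]
    linear_combination y r * hab
  · by_cases h2 : i = s
    · rw [if_neg h1, if_pos h2, h2]
      linear_combination y s * hab
    · simp only [if_neg h1, if_neg h2]

theorem comm_Face {ι F : Type*} [Fintype ι] [DecidableEq ι] [Field F] {r s : ι} (a b : F)
    {d : ι → F} (hd : d r = d s) :
    rot_Face r s a b * diagonal d = diagonal d * rot_Face r s a b := by
  ext i j
  simp only [mul_diagonal, diagonal_mul, rot_Face, of_apply]
  split_ifs <;> simp_all [mul_comm]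

theorem ex_Face {m : ℕ} {F : Type*} [Field F] (k : Fin m) {a b : F} (hab : a ^ 2 + b ^ 2 = 1) :
    ∃ B : OG (m + 1) F, ((B : GL (Fin (m + 1)) F) : Matrix (Fin (m + 1)) (Fin (m + 1)) F)ᵀ =
      rot_Face k.castSucc k.succ a b ∧
      ∀ g j, j ≠ k → tau m F (g * B) j = tau m F g j := by
  have h : k.castSucc ≠ k.succ := (Fin.castSucc_lt_succ).ne
  have h1 := mul_Face h hab
  have h2 : (rot_Face k.castSucc k.succ a (-b))ᵀ = rot_Face k.castSucc k.succ a b := by
    rw [tr_Face h, neg_neg]
  let U : GL (Fin (m + 1)) F := ⟨rot_Face k.castSucc k.succ a (-b), rot_Face k.castSucc k.succ a b,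
    mul_eq_one_comm.1 h1, h1⟩
  have hU : U ∈ OG (m + 1) F := by
    show (rot_Face k.castSucc k.succ a (-b))ᵀ * rot_Face k.castSucc k.succ a (-b) = 1
    rw [h2, h1]
  refine ⟨⟨U, hU⟩, h2, fun g j hj => ?_⟩
  have h3 : U * rho m F j = rho m F j * U := by
    refine Units.ext (comm_Face a (-b) ?_)
    have h4 : k.castSucc ≤ j.castSucc ↔ k.succ ≤ j.castSucc := by
      have h5 : (j : ℕ) ≠ k := fun e => hj (Fin.ext e)
      simp only [Fin.le_def, Fin.val_castSucc, Fin.val_succ]
      omega
    simp only [h4]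
  unfold tau
  congr 1
  show (g : GL (Fin (m + 1)) F) * U * rho m F j * ((g : GL (Fin (m + 1)) F) * U)⁻¹ = _
  rw [mul_assoc _ U, h3]
  group

theorem tau_face {m : ℕ} {F : Type*} [Field F] [Fintype F] [DecidableEq F]
    [Fintype (OG (m + 1) F)] {ψ : (Fin (m + 1) → F) → ℚ}
    (hψ : ∀ (x : Fin (m + 1) → F) (k : Fin m) (u v : F), ∑ p ∈ circ F,
      ψ (upd x k ((p.1 * u + p.2 * v) ^ 2) ((p.1 * v - p.2 * u) ^ 2)) = 0)
    (z : Fin (m + 1) → F) (k : Fin m) (Φ : (Fin m → ProjGenLinGroup (Fin (m + 1)) F) → ℚ)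
    (hΦ : ∀ t t', (∀ j, j ≠ k → t j = t' j) → Φ t = Φ t') :
    ∑ g : OG (m + 1) F, wt ψ z g * Φ (tau m F g) = 0 := by
  have h : k.castSucc ≠ k.succ := (Fin.castSucc_lt_succ).ne
  have h1 : ∀ p ∈ circ F, ∑ g : OG (m + 1) F, wt ψ z g * Φ (tau m F g) =
      ∑ g : OG (m + 1) F, ψ (upd
        (fun i => (((g : GL (Fin (m + 1)) F) : Matrix (Fin (m + 1)) (Fin (m + 1)) F)ᵀ *ᵥ z) i ^ 2) k
        ((p.1 * (((g : GL (Fin (m + 1)) F) : Matrix (Fin (m + 1)) (Fin (m + 1)) F)ᵀ *ᵥ z) k.castSucc +
          p.2 * (((g : GL (Fin (m + 1)) F) : Matrix (Fin (m + 1)) (Fin (m + 1)) F)ᵀ *ᵥ z) k.succ) ^ 2)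
        ((p.1 * (((g : GL (Fin (m + 1)) F) : Matrix (Fin (m + 1)) (Fin (m + 1)) F)ᵀ *ᵥ z) k.succ -
          p.2 * (((g : GL (Fin (m + 1)) F) : Matrix (Fin (m + 1)) (Fin (m + 1)) F)ᵀ *ᵥ z)
            k.castSucc) ^ 2)) * Φ (tau m F g) := by
    intro p hp
    obtain ⟨B, hB, hτ⟩ := ex_Face k (Finset.mem_filter.1 hp).2
    rw [← Equiv.sum_comp (Equiv.mulRight B)]
    refine Finset.sum_congr rfl fun g _ => ?_
    rw [Equiv.coe_mulRight, hΦ _ _ (hτ g)]
    congr 1
    unfold wt
    congr 1
    funext i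
    rw [Subgroup.coe_mul, Units.val_mul, transpose_mul, ← mulVec_mulVec, hB, mulVec_Face h, upd]
    by_cases h2 : i = k.succ
    · rw [h2, Function.update_self, if_neg h.symm, if_pos rfl]
    · rw [Function.update_of_ne h2, if_neg h2]
      by_cases h3 : i = k.castSucc
      · rw [h3, Function.update_self, if_pos rfl]
      · rw [Function.update_of_ne h3, if_neg h3]
  have h2 := Finset.sum_congr rfl h1
  rw [Finset.sum_const, Finset.sum_comm] at h2
  simp only [← Finset.sum_mul, hψ, zero_mul, Finset.sum_const_zero, nsmul_eq_mul] at h2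
  refine (mul_eq_zero.1 h2).resolve_left (Nat.cast_ne_zero.2 (Finset.card_ne_zero.2 ⟨(1, 0), ?_⟩))
  simp [circ]

end Vale.Agent.P240
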