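import Vale.Agent.P240.Sys

/-! P240 GS. Golod-Shafarevich count. Plan: M m = submodule of all psi with the support and relation
conditions, d m = finrank. M (m+1) contains (the extension by zero along Fin.cons of) the kernel of
the map from (X1 to M m) to (R to M (m-1)), T f rho = fun x => sum s t, w rho s t * f s (Fin.cons t x)
(for m = 0 the target is R to Q). So d (m+1) + r d (m-1) >= a1 d m, d 0 = a0, d (-1) = 1, and by
induction a0 d (m-1) <= d m. -/

namespace Vale.Agent.P240

open Matrix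

/-- Functions on words of length `m` with the support and relation conditions. -/
def N_GS {C R : Type*} [Fintype C] [DecidableEq C] (w : R → C → C → ℚ) (X₀ X₁ : Finset C)
    (m : ℕ) : Submodule ℚ ((Fin m → C) → ℚ) where
  carrier := {ψ | (∀ x, ψ x ≠ 0 → ∀ i : Fin m, x i ∈ if (i : ℕ) + 1 = m then X₀ else X₁) ∧
    ∀ (x : Fin m → C) (i j : Fin m), (j : ℕ) = i + 1 → ∀ ρ,
      ∑ s, ∑ t, w ρ s t * ψ (Function.update (Function.update x i s) j t) = 0}
  zero_mem' := ⟨fun x h => absurd rfl h, fun x i j _ ρ => by simp⟩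
  add_mem' := by
    rintro a b ⟨a1, a2⟩ ⟨b1, b2⟩
    refine ⟨fun x h => ?_, fun x i j hj ρ => ?_⟩
    · by_cases h0 : a x = 0
      · exact b1 x fun h' => h (by rw [Pi.add_apply, h0, h', add_zero])
      · exact a1 x h0
    · simp only [Pi.add_apply, mul_add, Finset.sum_add_distrib, a2 x i j hj ρ, b2 x i j hj ρ,
        add_zero]
  smul_mem' := by
    rintro r a ⟨a1, a2⟩
    refine ⟨fun x h => a1 x fun h' => h (by rw [Pi.smul_apply, h', smul_zero]),
      fun x i j hj ρ => ?_⟩
    have h := congrArg (fun y => r * y) (a2 x i j hj ρ)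
    simp only [Finset.mul_sum, mul_zero] at h
    rw [← h]
    exact Finset.sum_congr rfl fun s _ => Finset.sum_congr rfl fun t _ => by
      rw [Pi.smul_apply, smul_eq_mul]
      ring

/-- Fixing the first letter. -/
def tl_GS {C R : Type*} [Fintype C] [DecidableEq C] (w : R → C → C → ℚ) (X₀ X₁ : Finset C)
    (m : ℕ) (a : C) : N_GS w X₀ X₁ (m + 1) →ₗ[ℚ] N_GS w X₀ X₁ m :=
  (LinearMap.funLeft ℚ ℚ fun x : Fin m → C => (Fin.cons a x : Fin (m + 1) → C)).restrict (by
    rintro ψ ⟨h1, h2⟩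
    refine ⟨fun x hx i => ?_, fun x i j hj ρ => ?_⟩
    · have h := h1 _ hx i.succ
      simpa using h
    · have h := h2 (Fin.cons a x) i.succ j.succ (by simp [hj]) ρ
      simpa only [LinearMap.funLeft_apply, Fin.cons_update] using h)

theorem step_GS {C R : Type*} [Fintype C] [DecidableEq C] [Fintype R] (w : R → C → C → ℚ)
    (X₀ X₁ : Finset C) (m : ℕ) :
    X₁.card * Module.finrank ℚ (N_GS w X₀ X₁ (m + 1)) ≤
      Module.finrank ℚ (N_GS w X₀ X₁ (m + 2)) +
        Fintype.card R * Module.finrank ℚ (N_GS w X₀ X₁ m) := by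
  let L : N_GS w X₀ X₁ (m + 2) →ₗ[ℚ] (X₁ → N_GS w X₀ X₁ (m + 1)) :=
    LinearMap.pi fun s => tl_GS w X₀ X₁ (m + 1) s
  let T : (X₁ → N_GS w X₀ X₁ (m + 1)) →ₗ[ℚ] (R → N_GS w X₀ X₁ m) :=
    LinearMap.pi fun ρ => ∑ s : X₁, ∑ t, w ρ s t • (tl_GS w X₀ X₁ m t ∘ₗ LinearMap.proj s)
  have hk : LinearMap.ker T ≤ LinearMap.range L := by
    intro f hf
    have hT : ∀ ρ (x : Fin m → C), ∑ s : X₁, ∑ t, w ρ s t * (f s).1 (Fin.cons t x) = 0 := by
      intro ρ x
      have h := congrFun (congrArg Subtype.val (congrFun (LinearMap.mem_ker.1 hf) ρ)) x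
      simpa [T, tl_GS, Finset.sum_apply] using h
    refine ⟨⟨fun y => if h : y 0 ∈ X₁ then (f ⟨y 0, h⟩).1 (Fin.tail y) else 0, ?_, ?_⟩, ?_⟩
    · intro y hy i
      by_cases h : y 0 ∈ X₁
      · simp only [dif_pos h] at hy
        refine Fin.cases ?_ (fun i' => ?_) i
        · simpa using h
        · simpa [Fin.tail] using (f ⟨y 0, h⟩).2.1 _ hy i'
      · simp [dif_neg h] at hy
    · intro x i j hj ρ
      obtain ⟨j', rfl⟩ : ∃ j', j = Fin.succ j' :=
        ⟨j.pred (by rintro rfl; simp at hj), by simp⟩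
      revert hj
      refine Fin.cases (fun hj => ?_) (fun i' hj => ?_) i
      · obtain rfl : j' = 0 := Fin.ext (by simpa using hj)
        have e : ∀ s t, Function.update (Function.update x 0 s) (Fin.succ 0) t =
            (Fin.cons s (Fin.cons t (Fin.tail (Fin.tail x))) : Fin (m + 2) → C) := by
          intro s t
          rw [← Fin.cons_self_tail x, Fin.update_cons_zero, ← Fin.cons_update,
            ← Fin.cons_self_tail (Fin.tail x), Fin.update_cons_zero]
          simp
        simp only [e, Fin.cons_zero, Fin.tail_cons]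
        refine Eq.trans ?_ (hT ρ (Fin.tail (Fin.tail x)))
        rw [← Finset.sum_subset (Finset.subset_univ X₁), ← Finset.sum_coe_sort X₁]
        · exact Finset.sum_congr rfl fun s _ => by simp only [dif_pos s.2]
        · intro s _ hs
          simp [dif_neg hs]
      · have e : ∀ s t, Function.update (Function.update x i'.succ s) j'.succ t =
            (Fin.cons (x 0) (Function.update (Function.update (Fin.tail x) i' s) j' t) :
              Fin (m + 2) → C) := by
          intro s t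
          rw [Fin.cons_update, Fin.cons_update, Fin.cons_self_tail]
        simp only [e, Fin.cons_zero, Fin.tail_cons]
        by_cases h : x 0 ∈ X₁
        · simp only [dif_pos h]
          exact (f ⟨x 0, h⟩).2.2 _ i' j' (by simpa using hj) ρ
        · simp [dif_neg h]
    · funext s
      refine Subtype.ext (funext fun x => ?_)
      simp [L, tl_GS]
  have h1 := T.finrank_range_add_finrank_ker
  have h2 := (Submodule.finrank_mono hk).trans L.finrank_range_le
  have h3 := (LinearMap.range T).finrank_le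
  rw [Module.finrank_pi_fintype, Finset.sum_const, Finset.card_univ, smul_eq_mul] at h1 h3
  rw [Fintype.card_coe] at h1
  omega

theorem base_GS {C R : Type*} [Fintype C] [DecidableEq C] (w : R → C → C → ℚ)
    (X₀ X₁ : Finset C) : Module.finrank ℚ (N_GS w X₀ X₁ 0) ≤ 1 ∧
      X₀.card ≤ Module.finrank ℚ (N_GS w X₀ X₁ 1) := by
  constructor
  · have h := (N_GS w X₀ X₁ 0).finrank_le
    simpa using h
  · let L : N_GS w X₀ X₁ 1 →ₗ[ℚ] (X₀ → ℚ) :=
      (LinearMap.funLeft ℚ ℚ fun s : X₀ => fun _ : Fin 1 => (s : C)) ∘ₗ Submodule.subtype _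
    have hL : Function.Surjective L := by
      intro f
      refine ⟨⟨fun y => if h : y 0 ∈ X₀ then f ⟨y 0, h⟩ else 0, ?_, ?_⟩, ?_⟩
      · intro y hy i
        by_cases h : y 0 ∈ X₀
        · obtain rfl : i = 0 := Subsingleton.elim _ _
          simpa using h
        · simp [dif_neg h] at hy
      · intro x i j hj
        have := j.2
        omega
      · funext s
        simp [L]
    have h := LinearMap.finrank_le_finrank_of_surjective hL
    simpa using h

theorem ind_GS {C R : Type*} [Fintype C] [DecidableEq C] [Fintype R] (w : R → C → C → ℚ)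
    (X₀ X₁ : Finset C) (h0 : X₀.Nonempty)
    (hr : Fintype.card R + X₀.card * X₀.card ≤ X₀.card * X₁.card) (m : ℕ) :
    X₀.card * Module.finrank ℚ (N_GS w X₀ X₁ m) ≤ Module.finrank ℚ (N_GS w X₀ X₁ (m + 1)) ∧
      0 < Module.finrank ℚ (N_GS w X₀ X₁ (m + 1)) := by
  have ha : 0 < X₀.card := h0.card_pos
  induction m with
  | zero =>
    obtain ⟨b1, b2⟩ := base_GS w X₀ X₁
    exact ⟨((Nat.mul_le_mul_left _ b1).trans_eq (mul_one _)).trans b2, ha.trans_le b2⟩
  | succ m ih =>
    obtain ⟨i1, i2⟩ := ih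
    have h1 := step_GS w X₀ X₁ m
    have h2 : X₀.card * Module.finrank ℚ (N_GS w X₀ X₁ (m + 1)) ≤
        Module.finrank ℚ (N_GS w X₀ X₁ (m + 2)) := by
      refine Nat.le_of_mul_le_mul_left ?_ ha
      have h3 := Nat.mul_le_mul_left X₀.card h1
      have h4 := Nat.mul_le_mul_right (Module.finrank ℚ (N_GS w X₀ X₁ (m + 1))) hr
      have h5 := Nat.mul_le_mul_left (Fintype.card R) i1
      nlinarith
    exact ⟨h2, (Nat.mul_pos ha i2).trans_le h2⟩

theorem gs {C R : Type*} [Fintype C] [DecidableEq C] [Fintype R] (w : R → C → C → ℚ)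
    (X₀ X₁ : Finset C) (h0 : X₀.Nonempty)
    (hr : Fintype.card R + X₀.card * X₀.card ≤ X₀.card * X₁.card) (m : ℕ) :
    ∃ ψ : (Fin (m + 1) → C) → ℚ, ψ ≠ 0 ∧
      (∀ x, ψ x ≠ 0 → x (Fin.last m) ∈ X₀ ∧ ∀ k : Fin m, x k.castSucc ∈ X₁) ∧
      ∀ (x : Fin (m + 1) → C) (k : Fin m) (ρ : R), ∑ s, ∑ t, w ρ s t * ψ (upd x k s t) = 0 := by
  obtain ⟨⟨ψ, h1, h2⟩, hne⟩ :=
    Module.finrank_pos_iff_exists_ne_zero.1 (ind_GS w X₀ X₁ h0 hr m).2
  refine ⟨ψ, fun h => hne (Subtype.ext h), fun x hx => ⟨?_, fun k => ?_⟩, fun x k ρ => ?_⟩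
  · simpa using h1 x hx (Fin.last m)
  · have h := h1 x hx k.castSucc
    rwa [if_neg (by have := k.2; simp; omega)] at h
  · exact h2 x k.castSucc k.succ (by simp) ρ

end Vale.Agent.P240
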