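import Vale.Agent.P240.Sys

/-! P240 Lift. Basic facts on tau. Plan: lift_mem: closure (mk '' S) = (closure S).map mk <= K.map mk
and mk_eq_mk_iff'. dg is multiplicative. tau_indep: apply lift_mem with K the group of x such that
g⁻¹ x g commutes with the permutation matrix of swap j.castSucc j.succ (or: is diagonal with equal
entries there); rho j has entries -1 and 1 there. -/

namespace Vale.Agent.P240

open Matrix

theorem lift_mem {n : ℕ} {F : Type*} [Field F] (K : Subgroup (GL (Fin n) F))
    (hK : Subgroup.center (GL (Fin n) F) ≤ K) {S : Set (GL (Fin n) F)} (hS : S ⊆ K)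
    {x : GL (Fin n) F} (hx : ProjGenLinGroup.mk x ∈ Subgroup.closure (ProjGenLinGroup.mk '' S)) :
    x ∈ K := by
  rw [← MonoidHom.map_closure] at hx
  obtain ⟨y, hy, h⟩ := hx
  obtain ⟨z, hz, rfl⟩ := ProjGenLinGroup.mk_eq_mk_iff'.1 h
  exact K.mul_mem ((Subgroup.closure_le K).2 hS hy) (hK hz)

theorem dg_mul {n : ℕ} {F : Type*} [Field F] (d d' : Fin n → Fˣ) : dg d * dg d' = dg (d * d') := by
  refine Units.ext ?_
  simp [dg, diagonal_mul_diagonal]

theorem mul_Lift {m : ℕ} {F : Type*} [Field F] (g : OG (m + 1) F) (j j' : Fin m) :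
    tau m F g j * tau m F g j' = ProjGenLinGroup.mk
      ((g : GL (Fin (m + 1)) F) * (rho m F j * rho m F j') * (g : GL (Fin (m + 1)) F)⁻¹) := by
  rw [tau, tau, ← map_mul]
  congr 1
  group

theorem tau_sq {m : ℕ} {F : Type*} [Field F] (g : OG (m + 1) F) (j : Fin m) :
    tau m F g j * tau m F g j = 1 := by
  have h : rho m F j * rho m F j = 1 := by
    rw [rho, dg_mul]
    refine Units.ext ?_
    simp only [dg, Units.val_one, ← diagonal_one]
    refine congrArg diagonal (funext fun i => ?_)
    simp only [Pi.mul_apply]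
    split_ifs <;> simp
  rw [mul_Lift, h, mul_one, mul_inv_cancel, map_one]

theorem tau_comm {m : ℕ} {F : Type*} [Field F] (g : OG (m + 1) F) (j j' : Fin m) :
    tau m F g j * tau m F g j' = tau m F g j' * tau m F g j := by
  rw [mul_Lift, mul_Lift, rho, rho, dg_mul, dg_mul,
    mul_comm (fun i => if i ≤ j.castSucc then (-1 : Fˣ) else 1)]

theorem swap_Lift {n : ℕ} {F : Type*} [Field F] (d : Fin n → Fˣ) (a b : Fin n) :
    GeneralLinearGroup.swap F a b * dg d = dg d * GeneralLinearGroup.swap F a b ↔ d a = d b := by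
  constructor
  · intro h
    have h1 := congrArg (fun x : GL (Fin n) F => (x : Matrix (Fin n) (Fin n) F) a b) h
    simp only [Units.val_mul, GeneralLinearGroup.swap, dg, swap_mul_apply_left,
      mul_swap_apply_right, diagonal_apply_eq] at h1
    exact Units.ext h1.symm
  · intro h
    refine Units.ext (Matrix.ext fun i k => ?_)
    simp only [Units.val_mul, GeneralLinearGroup.swap, dg, mul_diagonal, diagonal_mul]
    by_cases h1 : Equiv.swap a b i = k
    · have h2 : d k = d i := by
        rw [← h1]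
        exact Equiv.apply_swap_eq_self h i
      rw [h2, mul_comm]
    · simp [swap, PEquiv.toMatrix_apply, h1]

theorem tau_indep {m : ℕ} {F : Type*} [Field F] (h2 : (2 : F) ≠ 0) (g : OG (m + 1) F) (j : Fin m) :
    tau m F g j ∉ Subgroup.closure (tau m F g '' {j' | j' ≠ j}) := by
  intro h
  obtain ⟨u, hu⟩ : ∃ u : GL (Fin (m + 1)) F, u = g := ⟨_, rfl⟩
  have h1 : ∀ k : Fin m, u * rho m F k * u⁻¹ ∈ Subgroup.centralizer
      {u * GeneralLinearGroup.swap F j.castSucc j.succ * u⁻¹} ↔
      (if j.castSucc ≤ k.castSucc then (-1 : Fˣ) else 1) =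
        if j.succ ≤ k.castSucc then (-1 : Fˣ) else 1 := fun k => by
    rw [Subgroup.mem_centralizer_singleton_iff, conj_mul, conj_mul, mul_left_inj, mul_right_inj,
      eq_comm]
    exact swap_Lift _ _ _
  have h3 := lift_mem (Subgroup.centralizer
      {u * GeneralLinearGroup.swap F j.castSucc j.succ * u⁻¹}) (Subgroup.center_le_centralizer _)
    (S := (fun k => u * rho m F k * u⁻¹) '' {j' | j' ≠ j}) (x := u * rho m F j * u⁻¹) ?_ ?_
  · rw [h1, if_pos le_rfl, if_neg (not_le.2 Fin.castSucc_lt_succ)] at h3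
    have h4 : (-1 : F) = 1 := by simpa using congrArg Units.val h3
    exact h2 (by linear_combination -h4)
  · rintro _ ⟨k, hk, rfl⟩
    refine (h1 k).2 (if_congr ?_ rfl rfl)
    have h4 : (k : ℕ) ≠ j := fun e => hk (Fin.ext e)
    simp only [Fin.le_def, Fin.val_castSucc, Fin.val_succ]
    omega
  · rw [Set.image_image, hu]
    exact h

end Vale.Agent.P240
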