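import Vale.Agent.P240.Lift

/-! P240 Mem. The involutions lie in PH. Plan: sign matrices dg d (d i = 1 or -1) and permutation
matrices lie in OG. With r i the sign matrix with a single -1 at i, r i * r i' is the commutator of
r i with the permutation matrix of swap i i'. So a sign matrix with an even number of entries -1 is
in the commutator subgroup N (induction on the finset, or: the images of all r i in OG / N agree and
square to one). For odd m + 1 either rho k or -rho k has an even number of entries -1, and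
mk (-x) = mk x (mk_scalar). N is normalized by OG. -/

namespace Vale.Agent.P240

open Matrix

/-- Diagonal matrices as a homomorphism. -/
def dgH_Mem (n : ℕ) (F : Type*) [Field F] : (Fin n → Fˣ) →* GL (Fin n) F :=
  MonoidHom.mk' dg fun d d' => (dg_mul d d').symm

/-- The permutation matrix of an involution. -/
def pm_Mem {n : ℕ} (F : Type*) [Field F] (σ : Equiv.Perm (Fin n)) (h : σ * σ = 1) :
    GL (Fin n) F where
  val := σ.permMatrix F
  inv := σ.permMatrix F
  val_inv := by rw [← permMatrix_mul, h, permMatrix_one]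
  inv_val := by rw [← permMatrix_mul, h, permMatrix_one]

theorem pm_mem_Mem {n : ℕ} (F : Type*) [Field F] (σ : Equiv.Perm (Fin n)) (h : σ * σ = 1) :
    pm_Mem F σ h ∈ OG n F := by
  change (σ.permMatrix F)ᵀ * σ.permMatrix F = 1
  rw [transpose_permMatrix, ← permMatrix_mul, mul_inv_cancel, permMatrix_one]

theorem pm_conj_Mem {n : ℕ} {F : Type*} [Field F] (σ : Equiv.Perm (Fin n)) (h : σ * σ = 1)
    (d : Fin n → Fˣ) : pm_Mem F σ h * dg d = dg (d ∘ σ) * pm_Mem F σ h := by
  ext i j
  change (σ.permMatrix F * diagonal fun i => (d i : F)) i j =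
    ((diagonal fun i => (d (σ i) : F)) * σ.permMatrix F) i j
  rw [mul_diagonal, diagonal_mul]
  by_cases hij : σ i = j
  · subst hij
    exact mul_comm _ _
  · simp [Equiv.Perm.permMatrix, PEquiv.toMatrix_apply, hij]

theorem dg_mem_Mem {n : ℕ} {F : Type*} [Field F] {d : Fin n → Fˣ} (h : ∀ i, d i * d i = 1) :
    dg d ∈ OG n F := by
  change (diagonal fun i => (d i : F))ᵀ * (diagonal fun i => (d i : F)) = 1
  rw [diagonal_transpose, diagonal_mul_diagonal, ← diagonal_one]
  congr 1
  funext i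
  rw [← Units.val_mul, h, Units.val_one]

theorem sq_Mem {n : ℕ} {F : Type*} [Field F] (i j : Fin n) :
    (Pi.mulSingle i (-1) : Fin n → Fˣ) j * (Pi.mulSingle i (-1) : Fin n → Fˣ) j = 1 := by
  rw [Pi.mulSingle_apply]
  split_ifs <;> simp

theorem pair_Mem {n : ℕ} {F : Type*} [Field F] (i i' : Fin n) :
    (Pi.mulSingle i (-1) * Pi.mulSingle i' (-1) : Fin n → Fˣ) ∈
      ⁅OG n F, OG n F⁆.comap (dgH_Mem n F) := by
  have h1 := Subgroup.commutator_mem_commutator
    (pm_mem_Mem F (Equiv.swap i i') (Equiv.swap_mul_self i i')) (dg_mem_Mem (sq_Mem (F := F) i'))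
  rw [commutatorElement_def, pm_conj_Mem, mul_inv_cancel_right] at h1
  have h2 : (Pi.mulSingle i' (-1) : Fin n → Fˣ) ∘ Equiv.swap i i' = Pi.mulSingle i (-1) := by
    funext j
    simp only [Function.comp, Pi.mulSingle_apply, Equiv.swap_apply_eq_iff, Equiv.swap_apply_right]
  have h3 : (Pi.mulSingle i' (-1) : Fin n → Fˣ)⁻¹ = Pi.mulSingle i' (-1) :=
    inv_eq_of_mul_eq_one_right (funext (sq_Mem i'))
  rw [h2] at h1
  rw [Subgroup.mem_comap, ← h3, map_mul, map_inv]
  exact h1

theorem even_Mem {n : ℕ} {F : Type*} [Field F] (s : Finset (Fin (n + 1))) (hs : Even s.card) :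
    dg (fun j => if j ∈ s then (-1 : Fˣ) else 1) ∈ ⁅OG (n + 1) F, OG (n + 1) F⁆ := by
  have h1 := Subgroup.prod_mem _ fun i (_ : i ∈ s) => pair_Mem (F := F) i 0
  obtain ⟨a, ha⟩ := hs
  have h2 : (Pi.mulSingle 0 (-1) : Fin (n + 1) → Fˣ) * Pi.mulSingle 0 (-1) = 1 :=
    funext (sq_Mem 0)
  rw [Finset.prod_mul_distrib, Finset.prod_const, ha, pow_add, ← mul_pow, h2, one_pow, mul_one,
    Subgroup.mem_comap] at h1
  have h3 : (∏ i ∈ s, Pi.mulSingle i (-1) : Fin (n + 1) → Fˣ) =
      fun j => if j ∈ s then (-1 : Fˣ) else 1 := by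
    funext j
    simp only [Finset.prod_apply, Pi.mulSingle_apply, Finset.prod_ite_eq]
  rw [h3] at h1
  exact h1

theorem conj_Mem {n : ℕ} {F : Type*} [Field F] (g : OG n F) {x : GL (Fin n) F}
    (hx : x ∈ ⁅OG n F, OG n F⁆) :
    (g : GL (Fin n) F) * x * (g : GL (Fin n) F)⁻¹ ∈ ⁅OG n F, OG n F⁆ := by
  have h1 : x ∈ OG n F := Subgroup.commutator_le_self _ hx
  have h2 := Subgroup.mul_mem _ (Subgroup.commutator_mem_commutator g.2 h1) hx
  rwa [commutatorElement_def, inv_mul_cancel_right] at h2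

theorem tau_mem {m : ℕ} {F : Type*} [Field F] (g : OG (m + 1) F) (k : Fin m) :
    tau m F g k ∈ PH (m + 1) F := by
  unfold tau PH
  have h0 : rho m F k ∈ OG (m + 1) F := dg_mem_Mem fun i => by split_ifs <;> simp
  split_ifs with hm
  swap
  · exact Subgroup.mem_map_of_mem _
      (Subgroup.mul_mem _ (Subgroup.mul_mem _ g.2 h0) (Subgroup.inv_mem _ g.2))
  set s : Finset (Fin (m + 1)) := Finset.univ.filter fun i => i ≤ k.castSucc with hs
  have h1 : rho m F k = dg fun j => if j ∈ s then (-1 : Fˣ) else 1 := by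
    simp only [rho, hs, Finset.mem_filter, Finset.mem_univ, true_and]
  rw [h1]
  rcases Nat.even_or_odd s.card with h2 | h2
  · exact Subgroup.mem_map_of_mem _ (conj_Mem g (even_Mem s h2))
  have h3 : Even sᶜ.card := by
    have h4 := Finset.card_add_card_compl s
    rw [Fintype.card_fin] at h4
    rw [← h4, Nat.odd_add] at hm
    exact hm.1 h2
  refine ⟨_, conj_Mem g (even_Mem sᶜ h3), ?_⟩
  have h4 : (dg fun j => if j ∈ sᶜ then (-1 : Fˣ) else 1) =
      GeneralLinearGroup.scalar (Fin (m + 1)) (-1 : Fˣ) *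
        dg fun j => if j ∈ s then (-1 : Fˣ) else 1 := by
    have h5 : GeneralLinearGroup.scalar (Fin (m + 1)) (-1 : Fˣ) = dg fun _ => -1 :=
      Units.ext rfl
    rw [h5, dg_mul]
    congr 1
    funext j
    by_cases hj : j ∈ s <;> simp [hj]
  rw [h4]
  simp only [map_mul, ProjGenLinGroup.mk_scalar, one_mul]

end Vale.Agent.P240
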