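import Vale.Agent.P240.Sys

/-! P240 Prod. Products of systems. Plan: project with Pi.evalMonoidHom: the image of the closure of
a set of generators under the i-th projection is the closure of the i-th block generators (others map
to one); tau gamma j is not one by indep. face: split the sum over the dependent function space at
the coordinate i (Equiv.piSplitAt or Fintype.sum over Function.update), apply (h i).face. -/

namespace Vale.Agent.P240

open Matrix

section

variable {ι : Type*} [LinearOrder ι] {H : ι → Type*} [∀ i, Group (H i)] {J : ι → Type*}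

/-- The block tuple. -/
def T_Prod (t : ∀ i, J i → H i) (j : Lex (Σ i, J i)) : ∀ i, H i :=
  Pi.mulSingle (ofLex j).1 (t (ofLex j).1 (ofLex j).2)

theorem mk_Prod (t : ∀ i, J i → H i) (i : ι) (a : J i) :
    T_Prod t (toLex ⟨i, a⟩) = Pi.mulSingle i (t i a) := rfl

theorem proj_Prod (t t' : ∀ i, J i → H i) {A : Set (Lex (Σ i, J i))} {i : ι} (B : Set (J i)) {b : J i}
    (hx : T_Prod t' (toLex ⟨i, b⟩) ∈ Subgroup.closure (T_Prod t '' A))
    (hB : ∀ a, toLex ⟨i, a⟩ ∈ A → a ∈ B) : t' i b ∈ Subgroup.closure (t i '' B) := by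
  have k : Subgroup.closure (T_Prod t '' A) ≤
      (Subgroup.closure (t i '' B)).comap (Pi.evalMonoidHom H i) := by
    refine (Subgroup.closure_le _).2 ?_
    rintro _ ⟨j, ha, rfl⟩
    obtain ⟨⟨k, a⟩, rfl⟩ := toLex.surjective j
    rw [mk_Prod, SetLike.mem_coe, Subgroup.mem_comap, Pi.evalMonoidHom_apply]
    by_cases e : i = k
    · subst e
      rw [Pi.mulSingle_eq_same]
      exact Subgroup.subset_closure ⟨a, hB a ha, rfl⟩
    · rw [Pi.mulSingle_eq_of_ne e]
      exact one_mem _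
  have := k hx
  rwa [mk_Prod, Subgroup.mem_comap, Pi.evalMonoidHom_apply, Pi.mulSingle_eq_same] at this

theorem blk_Prod {t t' : ∀ i, J i → H i}
    (h : Subgroup.closure (Set.range (T_Prod t)) = Subgroup.closure (Set.range (T_Prod t')))
    (i : ι) : Subgroup.closure (Set.range (t i)) ≤ Subgroup.closure (Set.range (t' i)) := by
  refine (Subgroup.closure_le _).2 ?_
  rintro _ ⟨a, rfl⟩
  have m := h.le (Subgroup.subset_closure ⟨toLex ⟨i, a⟩, rfl⟩)
  rw [← Set.image_univ] at m ⊢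
  exact proj_Prod t' t Set.univ m fun _ _ => trivial

theorem le_Prod [∀ i, LinearOrder (J i)] {i : ι} (b a : J i)
    (h : (toLex ⟨i, a⟩ : Lex (Σ i, J i)) ∈ Set.Iic (toLex ⟨i, b⟩)) : a ∈ Set.Iic b := by
  rcases Sigma.Lex.le_def.1 h with h | ⟨_, h⟩
  · exact absurd h (lt_irrefl i)
  · exact h

theorem face_Prod [Fintype ι] [∀ i, LinearOrder (J i)] {Γ : ι → Type*} [∀ i, Fintype (Γ i)]
    {τ : ∀ i, Γ i → J i → H i} {c : ∀ i, Γ i → ℚ} {γ₀ : ∀ i, Γ i}
    (h : ∀ i, Sys (τ i) (c i) (γ₀ i)) (i : ι) (a : J i) (Φ : (Lex (Σ i, J i) → ∀ i, H i) → ℚ)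
    (hΦ : ∀ t t', (∀ j', j' ≠ toLex ⟨i, a⟩ → t j' = t' j') → Φ t = Φ t') :
    ∑ γ : ∀ i, Γ i, (∏ i, c i (γ i)) * Φ (T_Prod fun i => τ i (γ i)) = 0 := by
  rw [← (Equiv.piSplitAt i Γ).symm.sum_comp, Fintype.sum_prod_type_right]
  refine Finset.sum_eq_zero fun r _ => ?_
  obtain ⟨γ, hγ⟩ : ∃ γ, ∀ x, (Equiv.piSplitAt i Γ).symm (x, r) = Function.update γ i x :=
    ⟨(Equiv.piSplitAt i Γ).symm (γ₀ i, r), fun x => funext fun k => by
      by_cases e : k = i
      · subst e; simp
      · simp [e]⟩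
  have f := (h i).face a (fun t => Φ (T_Prod (Function.update (fun k => τ k (γ k)) i t)))
    fun t t' ht => hΦ _ _ fun j hb => by
      obtain ⟨⟨k, b⟩, rfl⟩ := toLex.surjective j
      rw [mk_Prod, mk_Prod]
      by_cases e : k = i
      · subst e
        rw [Function.update_self, Function.update_self, ht b fun e => hb (by rw [e])]
      · rw [Function.update_of_ne e, Function.update_of_ne e]
  rw [← zero_mul (∏ k ∈ Finset.univ.erase i, c k (γ k)), ← f, Finset.sum_mul]
  refine Finset.sum_congr rfl fun x _ => ?_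
  have e : ∏ k ∈ Finset.univ.erase i, c k (Function.update γ i x k) =
      ∏ k ∈ Finset.univ.erase i, c k (γ k) := Finset.prod_congr rfl fun k hk => by
    rw [Function.update_of_ne (Finset.ne_of_mem_erase hk)]
  rw [hγ, ← Finset.mul_prod_erase _ _ (Finset.mem_univ i), Function.update_self, mul_right_comm, e,
    funext (Function.apply_update τ γ i x)]

end

theorem Sys.pi {ι : Type*} [Fintype ι] [LinearOrder ι] {H : ι → Type*} [∀ i, Group (H i)]
    {J : ι → Type*} [∀ i, LinearOrder (J i)] {Γ : ι → Type*} [∀ i, Fintype (Γ i)]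
    {τ : ∀ i, Γ i → J i → H i} {c : ∀ i, Γ i → ℚ} {γ₀ : ∀ i, Γ i}
    (h : ∀ i, Sys (τ i) (c i) (γ₀ i)) :
    Sys (G := ∀ i, H i) (J := Lex (Σ i, J i)) (Γ := ∀ i, Γ i)
      (fun γ j => Pi.mulSingle (ofLex j).1 (τ (ofLex j).1 (γ (ofLex j).1) (ofLex j).2))
      (fun γ => ∏ i, c i (γ i)) γ₀ := by
  show Sys (fun γ : ∀ i, Γ i => T_Prod fun i => τ i (γ i)) _ _
  refine ⟨fun γ j => ?_, fun γ j j' => ?_, fun γ j m => ?_, fun j Φ hΦ => ?_,
    Finset.prod_ne_zero_iff.2 fun i _ => (h i).ne, fun γ hc he j j' m => ?_, fun γ hc he m => ?_⟩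
  · rw [T_Prod, ← Pi.mulSingle_mul, (h _).sq, Pi.mulSingle_one]
  · obtain ⟨⟨i, a⟩, rfl⟩ := toLex.surjective j
    obtain ⟨⟨k, b⟩, rfl⟩ := toLex.surjective j'
    rw [mk_Prod, mk_Prod]
    by_cases e : i = k
    · subst e
      rw [← Pi.mulSingle_mul, ← Pi.mulSingle_mul, (h i).comm]
    · exact (Pi.mulSingle_commute e _ _).eq
  · obtain ⟨⟨i, a⟩, rfl⟩ := toLex.surjective j
    have := proj_Prod (fun i => τ i (γ i)) (fun i => τ i (γ i)) {j' | j' ≠ a} m
      fun b hb e => hb (by rw [e])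
    exact (h i).indep (γ i) a this
  · obtain ⟨⟨i, a⟩, rfl⟩ := toLex.surjective j
    exact face_Prod h i a Φ hΦ
  · obtain ⟨⟨i, a⟩, rfl⟩ := toLex.surjective j
    obtain ⟨⟨k, b⟩, rfl⟩ := toLex.surjective j'
    rcases lt_trichotomy k i with l | rfl | l
    · exact Sigma.Lex.le_def.2 (Or.inl l)
    · have e := le_antisymm (blk_Prod he k) (blk_Prod he.symm k)
      have := proj_Prod (fun i => τ i (γ₀ i)) (fun i => τ i (γ i)) _ m (le_Prod a)
      exact Sigma.Lex.le_def.2 (Or.inr ⟨rfl, (h k).det1 (γ k)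
        (Finset.prod_ne_zero_iff.1 hc k (Finset.mem_univ _)) e a b this⟩)
    · have := proj_Prod (fun i => τ i (γ₀ i)) (fun i => τ i (γ i)) ∅ m fun d hd => by
        rcases Sigma.Lex.le_def.1 hd with h | ⟨h, _⟩
        · exact lt_asymm l h
        · exact l.ne' h
      rw [Set.image_empty, Subgroup.closure_empty, Subgroup.mem_bot] at this
      exact absurd (this.symm ▸ one_mem _) ((h k).indep (γ k) b)
  · refine Finset.prod_congr rfl fun k _ => ?_
    have e := le_antisymm (blk_Prod he k) (blk_Prod he.symm k)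
    refine (h k).det2 (γ k) (Finset.prod_ne_zero_iff.1 hc k (Finset.mem_univ _)) e fun a => ?_
    have := proj_Prod (fun i => τ i (γ₀ i)) (fun i => τ i (γ i)) _ (m (toLex ⟨k, a⟩)) (le_Prod a)
    exact this

end Vale.Agent.P240
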