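import Vale.Agent.P240.CycB
import Vale.Agent.P240.CycC
import Vale.Agent.P240.Map
import Vale.Agent.P240.Prod
import Vale.Agent.P240.Psi
import Vale.Agent.P240.Face
import Vale.Agent.P240.Mem
import Vale.Agent.P240.DetB
import Vale.Agent.P240.RankC

/-! P240 Main. Assembly. -/

namespace Vale.Agent.P240

open Matrix

theorem Sys.qd {G : Type*} [Group G] [Finite G] {J : Type*} [LinearOrder J] [Fintype J]
    {Γ : Type*} [Fintype Γ] {τ : Γ → J → G} {c : Γ → ℚ} {γ₀ : Γ} (h : Sys τ c γ₀) {k : ℕ}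
    (hJ : Fintype.card J = k + 1) (hr : ∀ E : Subgroup G, IsEA 2 E → Nat.card E ≤ 2 ^ (k + 1)) :
    IsPRank 2 G (k + 1) ∧ HomNe 2 G k := by
  have h' := h.reindex (Fintype.orderIsoFinOfCardEq J hJ)
  refine ⟨⟨⟨Subgroup.closure (Set.range fun a => τ γ₀ (Fintype.orderIsoFinOfCardEq J hJ a)), ?_,
    card_closure (h'.sq γ₀) (h'.comm γ₀) (h'.indep γ₀)⟩, hr⟩, h'.cyc, h'.bd_cyc, ?_⟩
  · have h1 := (flag_chain (h'.sq γ₀) (h'.comm γ₀) (h'.indep γ₀)).2 (Fin.last k)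
    rwa [flag, show Set.Iic (Fin.last k) = Set.univ from Set.Iic_top, Set.image_univ] at h1
  · rintro ⟨y, hy⟩
    have := no_chain hr
    rw [Subsingleton.elim y 0, map_zero] at hy
    exact h'.cyc_ne hy.symm

theorem orth_sys {F : Type*} [Field F] [Finite F] (h2 : (2 : F) ≠ 0) (hq : 31 ≤ Nat.card F)
    (m : ℕ) [Fintype (OG (m + 1) F)] :
    ∃ (τ : OG (m + 1) F → Fin m → PH (m + 1) F) (c : OG (m + 1) F → ℚ), Sys τ c 1 := by
  classical
  have := Fintype.ofFinite F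
  obtain ⟨X₀, X₁, ψ, z, hX, hz, h1, h3⟩ := psi_exists h2 (by rwa [← Nat.card_eq_fintype_card]) m
  refine ⟨fun g k => ⟨tau m F g k, tau_mem g k⟩, wt ψ z,
    Sys.of_map (PH (m + 1) F).subtype Subtype.val_injective ?_⟩
  refine ⟨tau_sq, tau_comm, tau_indep h2, fun k Φ hΦ => tau_face h3 z k Φ hΦ, ?_,
    fun g hg hE => (tau_det h2 hX hz h1 g hg hE).1, fun g hg hE => (tau_det h2 hX hz h1 g hg hE).2⟩
  simpa [wt] using hz

theorem pi_rank {ι : Type*} [Fintype ι] {n : ι → ℕ} (h3 : ∀ i, 3 ≤ n i) (h4 : ∀ i, n i ≠ 4)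
    {K : ι → Type*} [∀ i, Field (K i)] (h2 : ∀ i, (2 : K i) ≠ 0) {G : Type*} [Group G] [Finite G]
    (π : G →* ∀ i, ProjGenLinGroup (Fin (n i)) (K i)) (hπ : Function.Injective π)
    (E : Subgroup G) (hE : IsEA 2 E) : Nat.card E ≤ 2 ^ ∑ i, (n i - 1) := by
  let f : ∀ i, G →* ProjGenLinGroup (Fin (n i)) (K i) := fun i => (Pi.evalMonoidHom _ i).comp π
  have hfin : ∀ i, Finite (E.map (f i)) := fun i =>
    Finite.of_surjective _ ((f i).subgroupMap_surjective E)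
  have h1 : ∀ i, Nat.card (E.map (f i)) ≤ 2 ^ (n i - 1) := fun i => by
    refine pgl_rank (h2 i) (by have := h3 i; omega) (by have := h3 i; omega) (h4 i) _ ?_ ?_
    · rintro _ ⟨x, hx, rfl⟩ _ ⟨y, hy, rfl⟩
      rw [← map_mul, ← map_mul, hE.2.1 x hx y hy]
    · rintro _ ⟨x, hx, rfl⟩
      rw [← map_pow, hE.2.2 x hx, map_one]
  have h5 : Nat.card E ≤ Nat.card (∀ i, E.map (f i)) := by
    refine Nat.card_le_card_of_injective (fun x i => (f i).subgroupMap E x) fun x y hxy => ?_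
    exact Subtype.ext (hπ (funext fun i => congrArg Subtype.val (congrFun hxy i)))
  rw [Nat.card_pi, ← Finset.prod_pow_eq_pow_sum] at *
  exact h5.trans (Finset.prod_le_prod' fun i _ => h1 i)

theorem main_qd {ι : Type*} [Fintype ι] [Nonempty ι] {n : ι → ℕ} (hn : ∀ i, 2 ≤ n i)
    {F : ι → Type*} [∀ i, Field (F i)] [∀ i, Finite (F i)] (h2 : ∀ i, (2 : F i) ≠ 0)
    (hq : ∀ i, 31 ≤ Nat.card (F i)) {G : Type*} [Group G] [Finite G]
    (j : (∀ i, PH (n i) (F i)) →* G) (hj : Function.Injective j)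
    (hr : ∀ E : Subgroup G, IsEA 2 E → Nat.card E ≤ 2 ^ ∑ i, (n i - 1)) :
    IsPRank 2 G (∑ i, (n i - 1)) ∧ HomNe 2 G (∑ i, (n i - 1) - 1) := by
  classical
  obtain ⟨m, rfl⟩ : ∃ m : ι → ℕ, n = fun i => m i + 1 :=
    ⟨fun i => n i - 1, funext fun i => (Nat.sub_add_cancel (le_trans one_le_two (hn i))).symm⟩
  simp only [Nat.add_sub_cancel] at hr ⊢
  have hfin : ∀ i, Fintype (OG (m i + 1) (F i)) := fun i => Fintype.ofFinite _
  choose τ c hs using fun i => orth_sys (h2 i) (hq i) (m i)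
  let _ : LinearOrder ι := LinearOrder.lift' (Fintype.equivFin ι) (Equiv.injective _)
  have h := (Sys.pi hs).map j hj
  obtain ⟨k, hk⟩ : ∃ k, ∑ i, m i = k + 1 := by
    obtain ⟨i⟩ := ‹Nonempty ι›
    have h1 : m i ≤ ∑ i, m i := Finset.single_le_sum (fun _ _ => Nat.zero_le _) (Finset.mem_univ i)
    have h3 : 2 ≤ m i + 1 := hn i
    exact ⟨∑ i, m i - 1, by omega⟩
  rw [hk] at hr ⊢
  exact h.qd (by simp [← hk]) hr

end Vale.Agent.P240
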