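import Vale.Agent.P240.Defs

/-! P240 Stmt: short names used in the hand-in. -/

namespace Vale.Agent.P240

/-- `A` is isomorphic to a subgroup of `B`. -/
def Emb (A B : Type) [Group A] [Group B] : Prop := ∃ f : A →* B, Function.Injective f

/-- `G` has `p`-rank `r` and nonzero reduced rational homology in the top degree `r - 1`. -/
def QD (p : ℕ) (G : Type) [Group G] (r : ℕ) : Prop := IsPRank p G r ∧ HomNe p G (r - 1)

end Vale.Agent.P240
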