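import Vale.Agent.P240.Defs

/-! P240 RankA. Commuting involutions. Plan: strong induction on the dimension, generalizing V. If
every a is 1 or -1 then card <= 2 (card <= 1 if V is trivial). Otherwise take g in A different from
1 and -1; V is the direct sum of the proper subspaces ker (g - 1) and ker (g + 1), invariant under A;
a is determined by its two restrictions (LinearMap.restrict), whose images are again sets of
commuting involutions. -/

namespace Vale.Agent.P240

open Matrix

theorem res_RankA {K : Type*} [Field K] {V : Type*} [AddCommGroup V] [Module K V]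
    (A : Finset (Module.End K V)) (sq : ∀ a ∈ A, a * a = 1)
    (comm : ∀ a ∈ A, ∀ b ∈ A, a * b = b * a) (P : Submodule K V)
    (hP : ∀ a ∈ A, ∀ x ∈ P, a x ∈ P) [DecidableEq (Module.End K P)] :
    (∀ b ∈ Finset.univ.image (fun a : A => (a.1.restrict (hP a.1 a.2) : Module.End K P)),
      b * b = 1) ∧
    ∀ b ∈ Finset.univ.image (fun a : A => (a.1.restrict (hP a.1 a.2) : Module.End K P)),
      ∀ c ∈ Finset.univ.image (fun a : A => (a.1.restrict (hP a.1 a.2) : Module.End K P)),
        b * c = c * b := by
  constructor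
  · intro b hb
    obtain ⟨a, -, rfl⟩ := Finset.mem_image.mp hb
    ext x
    have := LinearMap.congr_fun (sq a.1 a.2) x
    simpa [LinearMap.restrict_apply] using this
  · intro b hb c hc
    obtain ⟨a, -, rfl⟩ := Finset.mem_image.mp hb
    obtain ⟨d, -, rfl⟩ := Finset.mem_image.mp hc
    ext x
    have := LinearMap.congr_fun (comm a.1 a.2 d.1 d.2) x
    simpa [LinearMap.restrict_apply] using this

theorem aux_RankA.{u} {K : Type*} [Field K] (h2 : (2 : K) ≠ 0) (n : ℕ) :
    ∀ (V : Type u) [AddCommGroup V] [Module K V] [FiniteDimensional K V],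
      Module.finrank K V = n → ∀ A : Finset (Module.End K V), (∀ a ∈ A, a * a = 1) →
      (∀ a ∈ A, ∀ b ∈ A, a * b = b * a) → A.card ≤ 2 ^ n := by
  induction n using Nat.strong_induction_on with
  | _ n ih =>
  intro V _ _ _ hn A sq comm
  classical
  by_cases hall : ∀ a ∈ A, a = 1 ∨ a = -1
  · rcases Nat.eq_zero_or_pos n with h0 | hpos
    · subst h0
      have : Subsingleton V := Module.finrank_zero_iff.mp hn
      rw [pow_zero, Finset.card_le_one]
      intro a _ b _
      ext x
      exact Subsingleton.elim _ _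
    · have h1 : A ⊆ ({1, -1} : Finset (Module.End K V)) := by
        intro a ha
        simpa using hall a ha
      calc A.card ≤ ({1, -1} : Finset (Module.End K V)).card := Finset.card_le_card h1
        _ ≤ 2 := Finset.card_le_two
        _ = 2 ^ 1 := by norm_num
        _ ≤ 2 ^ n := Nat.pow_le_pow_right (by norm_num) hpos
  · push Not at hall
    obtain ⟨g, hg, h1, hm1⟩ := hall
    have hgg : ∀ x, g (g x) = x := fun x => LinearMap.congr_fun (sq g hg) x
    have hcm : ∀ a ∈ A, ∀ x, g (a x) = a (g x) := fun a ha x =>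
      LinearMap.congr_fun (comm g hg a ha) x
    obtain ⟨P, hPm⟩ : ∃ P : Submodule K V, ∀ x, x ∈ P ↔ g x = x :=
      ⟨LinearMap.ker (g - 1), fun x => by simp [sub_eq_zero]⟩
    obtain ⟨M, hMm⟩ : ∃ M : Submodule K V, ∀ x, x ∈ M ↔ g x = -x :=
      ⟨LinearMap.ker (g + 1), fun x => by simp [add_eq_zero_iff_eq_neg]⟩
    have hdec : ∀ x : V, ∃ y ∈ P, ∃ z ∈ M, y + z = x := by
      intro x
      refine ⟨(2 : K)⁻¹ • (x + g x), ?_, (2 : K)⁻¹ • (x - g x), ?_, ?_⟩
      · rw [hPm, map_smul, map_add, hgg, add_comm]
      · rw [hMm, map_smul, map_sub, hgg, ← smul_neg, neg_sub]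
      · rw [← smul_add, add_add_sub_cancel, ← two_smul K x, smul_smul, inv_mul_cancel₀ h2,
          one_smul]
    have hc : IsCompl P M := by
      constructor
      · rw [Submodule.disjoint_def]
        intro x hx hy
        have e : (2 : K) • x = 0 := by
          rw [two_smul]
          have := ((hPm x).mp hx).symm.trans ((hMm x).mp hy)
          exact add_eq_zero_iff_eq_neg.mpr this
        exact (smul_eq_zero.mp e).resolve_left h2
      · rw [codisjoint_iff, eq_top_iff]
        intro x _
        exact Submodule.mem_sup.mpr (hdec x)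
    have hPt : P ≠ ⊤ := by
      intro h
      apply h1
      ext x
      exact (hPm x).mp (h ▸ Submodule.mem_top)
    have hMt : M ≠ ⊤ := by
      intro h
      apply hm1
      ext x
      exact (hMm x).mp (h ▸ Submodule.mem_top)
    have hP : ∀ a ∈ A, ∀ x ∈ P, a x ∈ P := by
      intro a ha x hx
      rw [hPm, hcm a ha, (hPm x).mp hx]
    have hM : ∀ a ∈ A, ∀ x ∈ M, a x ∈ M := by
      intro a ha x hx
      rw [hMm, hcm a ha, (hMm x).mp hx, map_neg]
    obtain ⟨p1, p2⟩ := res_RankA A sq comm P hP
    obtain ⟨m1, m2⟩ := res_RankA A sq comm M hM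
    have cP := ih _ (hn ▸ Submodule.finrank_lt hPt) P rfl _ p1 p2
    have cM := ih _ (hn ▸ Submodule.finrank_lt hMt) M rfl _ m1 m2
    have hsum : Module.finrank K P + Module.finrank K M = n :=
      hn ▸ Submodule.finrank_add_eq_of_isCompl hc
    have hle : (Finset.univ : Finset A).card ≤
        ((Finset.univ.image (fun a : A => (a.1.restrict (hP a.1 a.2) : Module.End K P))) ×ˢ
          (Finset.univ.image (fun a : A => (a.1.restrict (hM a.1 a.2) : Module.End K M)))).card := by
      apply Finset.card_le_card_of_injOn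
        (fun a : A => (a.1.restrict (hP a.1 a.2), a.1.restrict (hM a.1 a.2)))
      · intro a _
        exact Finset.mem_coe.mpr (Finset.mem_product.mpr
          ⟨Finset.mem_image_of_mem _ (Finset.mem_univ a),
            Finset.mem_image_of_mem _ (Finset.mem_univ a)⟩)
      · intro a _ b _ hab
        obtain ⟨e1, e2⟩ := Prod.mk.inj hab
        apply Subtype.ext
        ext x
        obtain ⟨y, hy, z, hz, rfl⟩ := hdec x
        have f1 := congrArg Subtype.val (LinearMap.congr_fun e1 ⟨y, hy⟩)
        have f2 := congrArg Subtype.val (LinearMap.congr_fun e2 ⟨z, hz⟩)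
        simp only [LinearMap.restrict_apply] at f1 f2
        rw [map_add, map_add, f1, f2]
    rw [Finset.card_product, Finset.card_univ, Fintype.card_coe] at hle
    calc A.card ≤ _ := hle
      _ ≤ 2 ^ Module.finrank K P * 2 ^ Module.finrank K M := Nat.mul_le_mul cP cM
      _ = 2 ^ n := by rw [← pow_add, hsum]

theorem rankA {K : Type*} [Field K] (h2 : (2 : K) ≠ 0) {V : Type*} [AddCommGroup V] [Module K V]
    [FiniteDimensional K V] (A : Finset (Module.End K V)) (sq : ∀ a ∈ A, a * a = 1)
    (comm : ∀ a ∈ A, ∀ b ∈ A, a * b = b * a) : A.card ≤ 2 ^ Module.finrank K V := by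
  exact aux_RankA h2 _ V rfl A sq comm

end Vale.Agent.P240
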