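import Vale.Agent.P240.RankA

/-! P240 RankB. Projective version. Plan: strong induction on n generalizing V, A. If all commute,
A is covered by A1 = elements with square 1 and I • A1, so card <= 2 * 2^n by rankA. Otherwise g, h
anticommute, after multiplying by I • 1 we have g * g = 1; h swaps the eigenspaces P = ker (g - 1),
N = ker (g + 1), so n = 2 n'. A0 = elements commuting with g and h; one of a, a g, a h, a g h lies in
A0, so card A <= 4 card A0; restriction to P is injective on A0 (N = h P) and its image satisfies the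
hypotheses. Arithmetic: n' = 1 uses the second bound. -/

namespace Vale.Agent.P240

open Matrix

theorem inj_RankB {R : Type*} [Ring R] {c : R} (hc : c * c = 1 ∨ c * c = -1) :
    Function.Injective fun a : R => a * c := by
  intro a b e
  have h1 : a * (c * c) = b * (c * c) := by
    rw [← mul_assoc, ← mul_assoc]
    exact congrArg (· * c) e
  rcases hc with h | h
  · simpa [h] using h1
  · simpa [h] using h1

theorem cover_RankB {R : Type*} [Ring R] [DecidableEq R] (A : Finset R)
    (mul : ∀ a ∈ A, ∀ b ∈ A, a * b ∈ A) (sq : ∀ a ∈ A, a * a = 1 ∨ a * a = -1)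
    (comm : ∀ a ∈ A, ∀ b ∈ A, a * b = b * a ∨ a * b = -(b * a)) {g h : R} (hg : g ∈ A) (hh : h ∈ A)
    (e : g * h = -(h * g)) :
    A.card ≤ 4 * (A.filter fun a => g * a = a * g ∧ h * a = a * h).card := by
  generalize hB : (A.filter fun a => g * a = a * g ∧ h * a = a * h) = B
  have e' : h * g = -(g * h) := by rw [e, neg_neg]
  have h1 : ∀ c : R, c * c = 1 ∨ c * c = -1 → (A.filter fun a => a * c ∈ B).card ≤ B.card :=
    fun c hc => Finset.card_le_card_of_injOn (fun a => a * c)
      (fun a ha => (Finset.mem_filter.1 (Finset.mem_coe.1 ha)).2) (inj_RankB hc).injOn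
  have h2 : A ⊆ (((A.filter fun a => a * 1 ∈ B) ∪ A.filter fun a => a * g ∈ B) ∪
      A.filter fun a => a * h ∈ B) ∪ A.filter fun a => a * (g * h) ∈ B := by
    intro a ha
    simp only [Finset.mem_union, Finset.mem_filter, ← hB, ha, true_and, mul_one]
    rcases comm g hg a ha with a1 | a1 <;> rcases comm h hh a ha with a2 | a2
    · exact Or.inl (Or.inl (Or.inl ⟨a1, a2⟩))
    · refine Or.inl (Or.inl (Or.inr ⟨mul a ha g hg, ?_, ?_⟩))
      · rw [← mul_assoc, a1]
      · rw [← mul_assoc, a2, mul_assoc a g, e, neg_mul, mul_neg, mul_assoc]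
    · refine Or.inl (Or.inr ⟨mul a ha h hh, ?_, ?_⟩)
      · rw [← mul_assoc, a1, mul_assoc a h, e', neg_mul, mul_neg, mul_assoc]
      · rw [← mul_assoc, a2]
    · refine Or.inr ⟨mul a ha _ (mul g hg h hh), ?_, ?_⟩
      · rw [← mul_assoc, a1, mul_assoc a (g * h), mul_assoc g h, e', neg_mul, mul_neg, mul_neg,
          mul_assoc]
      · rw [← mul_assoc, a2, neg_mul, mul_assoc a h, ← mul_assoc h g, e', neg_mul, mul_neg, neg_neg,
          mul_assoc a]
  have h3 := (Finset.card_le_card h2).trans ((Finset.card_union_le _ _).trans (add_le_add_left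
    ((Finset.card_union_le _ _).trans (add_le_add_left (Finset.card_union_le _ _) _)) _))
  have h4 := h1 1 (Or.inl (mul_one 1))
  have h5 := h1 g (sq g hg)
  have h6 := h1 h (sq h hh)
  have h7 := h1 _ (sq _ (mul g hg h hh))
  omega

theorem split_RankB {K : Type*} [Field K] (h2 : (2 : K) ≠ 0) {V : Type*} [AddCommGroup V]
    [Module K V] {g h : Module.End K V} (hg : g * g = 1) (hh : h * h = 1 ∨ h * h = -1)
    (e : g * h = -(h * g)) : Function.Bijective
      ((LinearMap.ker (g - 1)).subtype.coprod (h ∘ₗ (LinearMap.ker (g - 1)).subtype)) := by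
  have hP : ∀ x, x ∈ LinearMap.ker (g - 1) ↔ g x = x := fun x => by
    rw [LinearMap.mem_ker, LinearMap.sub_apply, Module.End.one_apply, sub_eq_zero]
  have e1 : ∀ x, g (h x) = -h (g x) := fun x => LinearMap.congr_fun e x
  have g2 : ∀ x, g (g x) = x := fun x => LinearMap.congr_fun hg x
  obtain ⟨ε, hε⟩ : ∃ ε : K, ∀ x, ε • h (h x) = x := by
    rcases hh with h1 | h1
    · exact ⟨1, fun x => (one_smul _ _).trans (LinearMap.congr_fun h1 x)⟩
    · refine ⟨-1, fun x => ?_⟩
      have h3 : h (h x) = -x := LinearMap.congr_fun h1 x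
      rw [h3, neg_smul_neg, one_smul]
  refine ⟨(injective_iff_map_eq_zero _).2 fun p hp => ?_, fun v => ?_⟩
  · obtain ⟨⟨x, hx⟩, ⟨y, hy⟩⟩ := p
    have a1 : x + h y = 0 := hp
    have a2 := congrArg g a1
    rw [map_add, e1, (hP x).1 hx, (hP y).1 hy, map_zero] at a2
    have a3 : (2 : K) • x = 0 := by
      have a6 : x + x = (x + h y) + (x + -h y) := by abel
      rw [two_smul, a6, a1, a2, add_zero]
    have a4 : x = 0 := (smul_eq_zero.1 a3).resolve_left h2
    rw [a4, zero_add] at a1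
    have a5 : y = 0 := by rw [← hε y, a1, map_zero, smul_zero]
    exact Prod.ext (Subtype.ext a4) (Subtype.ext a5)
  · refine ⟨(⟨(2 : K)⁻¹ • (v + g v), (hP _).2 ?_⟩,
      ⟨(2 : K)⁻¹ • ε • h (v - g v), (hP _).2 ?_⟩), ?_⟩
    · rw [map_smul, map_add, g2, add_comm]
    · rw [map_smul, map_smul, e1, map_sub g, g2, ← map_neg, neg_sub]
    · show (2 : K)⁻¹ • (v + g v) + h ((2 : K)⁻¹ • ε • h (v - g v)) = v
      rw [map_smul, map_smul, hε, ← smul_add, add_add_sub_cancel, ← two_smul K v, smul_smul,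
        inv_mul_cancel₀ h2, one_smul]

theorem com_RankB {K : Type*} [Field K] (h2 : (2 : K) ≠ 0) {I : K} (hI : I * I = -1) {V : Type*}
    [AddCommGroup V] [Module K V] [FiniteDimensional K V] (A : Finset (Module.End K V))
    (sq : ∀ a ∈ A, a * a = 1 ∨ a * a = -1) (comm : ∀ a ∈ A, ∀ b ∈ A, a * b = b * a) :
    A.card ≤ 2 * 2 ^ Module.finrank K V := by
  classical
  have hI0 : I ≠ 0 := fun e => by simp [e] at hI
  have h1 := rankA h2 (A.filter fun a => a * a = 1) (fun a ha => (Finset.mem_filter.1 ha).2)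
    fun a ha b hb => comm a (Finset.mem_filter.1 ha).1 b (Finset.mem_filter.1 hb).1
  have h3 := rankA h2 ((A.filter fun a => ¬ a * a = 1).image fun a => I • a) (fun a ha => by
      obtain ⟨b, hb, rfl⟩ := Finset.mem_image.1 ha
      obtain ⟨b1, b2⟩ := Finset.mem_filter.1 hb
      rw [smul_mul_smul_comm, hI, (sq b b1).resolve_left b2, neg_smul_neg, one_smul])
    fun _ ha' _ hb' => by
      obtain ⟨a, ha, rfl⟩ := Finset.mem_image.1 ha'
      obtain ⟨b, hb, rfl⟩ := Finset.mem_image.1 hb'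
      rw [smul_mul_smul_comm, smul_mul_smul_comm,
        comm a (Finset.mem_filter.1 ha).1 b (Finset.mem_filter.1 hb).1]
  rw [Finset.card_image_of_injective _ (smul_right_injective _ hI0)] at h3
  have h4 := Finset.card_filter_add_card_filter_not (s := A) fun a => a * a = 1
  omega

theorem rankB {K : Type*} [Field K] (h2 : (2 : K) ≠ 0) {I : K} (hI : I * I = -1) {V : Type*}
    [AddCommGroup V] [Module K V] [FiniteDimensional K V] {n : ℕ} (hn : Module.finrank K V = n)
    (h0 : 0 < n) (A : Finset (Module.End K V)) (mul : ∀ a ∈ A, ∀ b ∈ A, a * b ∈ A)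
    (hIA : I • (1 : Module.End K V) ∈ A) (sq : ∀ a ∈ A, a * a = 1 ∨ a * a = -1)
    (comm : ∀ a ∈ A, ∀ b ∈ A, a * b = b * a ∨ a * b = -(b * a)) :
    A.card ≤ 4 * 2 ^ n ∧ (n ≠ 2 → n ≠ 4 → A.card ≤ 4 * 2 ^ (n - 1)) := by
  classical
  induction n using Nat.strong_induction_on generalizing V with
  | _ n ih =>
  by_cases hc : ∀ a ∈ A, ∀ b ∈ A, a * b = b * a
  · have h1 := com_RankB h2 hI A sq hc
    obtain ⟨m, rfl⟩ : ∃ m, n = m + 1 := ⟨n - 1, by omega⟩
    rw [hn, pow_succ] at h1
    rw [Nat.add_sub_cancel, pow_succ]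
    exact ⟨by omega, fun _ _ => by omega⟩
  push Not at hc
  obtain ⟨g, hg, h, hh, g2, e⟩ : ∃ g ∈ A, ∃ h ∈ A, g * g = 1 ∧ g * h = -(h * g) := by
    obtain ⟨g, hg, h, hh, hne⟩ := hc
    have e := (comm g hg h hh).resolve_left hne
    rcases sq g hg with h1 | h1
    · exact ⟨g, hg, h, hh, h1, e⟩
    · refine ⟨I • g, by simpa using mul _ hIA g hg, h, hh, ?_, ?_⟩
      · rw [smul_mul_smul_comm, hI, h1, neg_smul_neg, one_smul]
      · rw [smul_mul_assoc, e, mul_smul_comm, smul_neg]
  have hb := split_RankB h2 g2 (sq h hh) e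
  have hcov := cover_RankB A mul sq comm hg hh e
  have hP : ∀ x, x ∈ LinearMap.ker (g - 1) ↔ g x = x := fun x => by
    rw [LinearMap.mem_ker, LinearMap.sub_apply, Module.End.one_apply, sub_eq_zero]
  generalize LinearMap.ker (g - 1) = P at hb hP
  have hd := (LinearEquiv.ofBijective _ hb).finrank_eq
  rw [Module.finrank_prod, hn] at hd
  generalize hB : (A.filter fun a => g * a = a * g ∧ h * a = a * h) = B at hcov
  have hm : ∀ a, a ∈ B ↔ a ∈ A ∧ g * a = a * g ∧ h * a = a * h := fun a => by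
    rw [← hB, Finset.mem_filter]
  obtain ⟨r, hr⟩ : ∃ r : Module.End K V → Module.End K P, ∀ a ∈ B, ∀ x, (r a x : V) = a x := by
    refine ⟨fun a => if ha : ∀ x ∈ P, a x ∈ P then a.restrict ha else 0, fun a ha x => ?_⟩
    have h1 : ∀ x ∈ P, a x ∈ P := fun x hx => (hP _).2 (by
      have h3 : g (a x) = a (g x) := LinearMap.congr_fun ((hm a).1 ha).2.1 x
      rw [h3, (hP x).1 hx])
    simp only [dif_pos h1]
    rfl
  have hr2 : ∀ a ∈ B, ∀ b ∈ B, ∀ x, ((r a * r b) x : V) = (a * b) x := fun a ha b hb x => by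
    rw [Module.End.mul_apply, hr a ha, hr b hb, Module.End.mul_apply]
  have hinj : Set.InjOn r B := fun a ha b hb' e => by
    have h1 : ∀ x : P, a x = b x := fun x => by rw [← hr a ha, ← hr b hb', e]
    ext v
    obtain ⟨⟨x, y⟩, rfl⟩ := hb.2 v
    show a (x + h y) = b (x + h y)
    have h3 : h (a y) = a (h y) := LinearMap.congr_fun ((hm a).1 ha).2.2 y
    have h4 : h (b y) = b (h y) := LinearMap.congr_fun ((hm b).1 hb').2.2 y
    rw [map_add, map_add, ← h3, ← h4, h1, h1]
  have key := ih (Module.finrank K P) (by omega) rfl (by omega) (B.image r)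
    (fun _ ha' _ hb' => by
      obtain ⟨a, ha, rfl⟩ := Finset.mem_image.1 ha'
      obtain ⟨b, hb, rfl⟩ := Finset.mem_image.1 hb'
      obtain ⟨a1, a2, a3⟩ := (hm a).1 ha
      obtain ⟨b1, b2, b3⟩ := (hm b).1 hb
      have h1 : a * b ∈ B := (hm _).2 ⟨mul a a1 b b1,
        by rw [← mul_assoc, a2, mul_assoc, b2, mul_assoc],
        by rw [← mul_assoc, a3, mul_assoc, b3, mul_assoc]⟩
      exact Finset.mem_image.2 ⟨_, h1, LinearMap.ext fun x =>
        Subtype.ext ((hr _ h1 x).trans (hr2 a ha b hb x).symm)⟩)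
    (by
      have h1 : I • (1 : Module.End K V) ∈ B := (hm _).2 ⟨hIA, by simp, by simp⟩
      exact Finset.mem_image.2 ⟨_, h1, LinearMap.ext fun x => Subtype.ext (hr _ h1 x)⟩)
    (fun _ ha' => by
      obtain ⟨a, ha, rfl⟩ := Finset.mem_image.1 ha'
      refine (sq a ((hm a).1 ha).1).imp (fun h1 => ?_) fun h1 => ?_ <;>
        exact LinearMap.ext fun x => Subtype.ext (by rw [hr2 a ha a ha, h1]; rfl))
    (fun _ ha' _ hb' => by
      obtain ⟨a, ha, rfl⟩ := Finset.mem_image.1 ha'
      obtain ⟨b, hb, rfl⟩ := Finset.mem_image.1 hb'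
      refine (comm a ((hm a).1 ha).1 b ((hm b).1 hb).1).imp (fun h1 => ?_) fun h1 => ?_
      · exact LinearMap.ext fun x => Subtype.ext (by rw [hr2 a ha b hb, hr2 b hb a ha, h1])
      · exact LinearMap.ext fun x => Subtype.ext (by
          rw [hr2 a ha b hb, h1, LinearMap.neg_apply, LinearMap.neg_apply, Submodule.coe_neg,
            hr2 b hb a ha]))
  rw [Finset.card_image_of_injOn hinj] at key
  generalize Module.finrank K P = m at hd key
  subst hd
  obtain rfl | hm1 : m = 1 ∨ 2 ≤ m := by omega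
  · have h1 := key.2 (by norm_num) (by norm_num)
    exact ⟨by norm_num at h1 ⊢; omega, fun h => absurd rfl h⟩
  · have h1 : 2 ^ (m + 2) ≤ 2 ^ (m + m) := Nat.pow_le_pow_right two_pos (by omega)
    refine ⟨by rw [pow_add] at h1; omega, fun a1 a2 => ?_⟩
    have h3 : 2 ^ (m + 2) ≤ 2 ^ (m + m - 1) := Nat.pow_le_pow_right two_pos (by omega)
    rw [pow_add] at h3
    omega

end Vale.Agent.P240
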