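import Vale.Agent.P240.Defs

/-! P240 Sys: weighted families of tuples of commuting involutions that give top cycles, and the
concrete data for orthogonal groups. -/

namespace Vale.Agent.P240

open Matrix

/-- A weighted family of tuples of independent commuting involutions whose faces cancel, with a
distinguished member `γ₀` whose standard flag detects the family. -/
structure Sys {G : Type*} [Group G] {J : Type*} [LinearOrder J] {Γ : Type*} [Fintype Γ]
    (τ : Γ → J → G) (c : Γ → ℚ) (γ₀ : Γ) : Prop where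
  sq : ∀ γ j, τ γ j * τ γ j = 1
  comm : ∀ γ j j', τ γ j * τ γ j' = τ γ j' * τ γ j
  indep : ∀ γ j, τ γ j ∉ Subgroup.closure (τ γ '' {j' | j' ≠ j})
  face : ∀ (j : J) (Φ : (J → G) → ℚ), (∀ t t' : J → G, (∀ j', j' ≠ j → t j' = t' j') → Φ t = Φ t') →
    ∑ γ, c γ * Φ (τ γ) = 0
  ne : c γ₀ ≠ 0
  det1 : ∀ γ, c γ ≠ 0 → Subgroup.closure (Set.range (τ γ)) = Subgroup.closure (Set.range (τ γ₀)) →
    ∀ j j', τ γ j' ∈ Subgroup.closure (τ γ₀ '' Set.Iic j) → j' ≤ j
  det2 : ∀ γ, c γ ≠ 0 → Subgroup.closure (Set.range (τ γ)) = Subgroup.closure (Set.range (τ γ₀)) →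
    (∀ j, τ γ j ∈ Subgroup.closure (τ γ₀ '' Set.Iic j)) → c γ = c γ₀

/-- The flag of subgroups generated by initial segments of a tuple. -/
def flag {G : Type*} [Group G] {m : ℕ} (t : Fin m → G) (i : Fin m) : Subgroup G :=
  Subgroup.closure (t '' Set.Iic i)

/-- A diagonal matrix with unit entries. -/
def dg {n : ℕ} {F : Type*} [Field F] (d : Fin n → Fˣ) : GL (Fin n) F where
  val := diagonal fun i => (d i : F)
  inv := diagonal fun i => (((d i)⁻¹ : Fˣ) : F)
  val_inv := by simp [diagonal_mul_diagonal]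
  inv_val := by simp [diagonal_mul_diagonal]

/-- Minus one on the coordinates `0, ..., k`, one on the others. -/
def rho (m : ℕ) (F : Type*) [Field F] (k : Fin m) : GL (Fin (m + 1)) F :=
  dg fun i => if i ≤ k.castSucc then -1 else 1

/-- The tuple of projective involutions attached to an orthogonal matrix. -/
def tau (m : ℕ) (F : Type*) [Field F] (g : OG (m + 1) F) (k : Fin m) :
    ProjGenLinGroup (Fin (m + 1)) F :=
  ProjGenLinGroup.mk ((g : GL (Fin (m + 1)) F) * rho m F k * (g : GL (Fin (m + 1)) F)⁻¹)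

/-- The weight attached to an orthogonal matrix. -/
def wt {m : ℕ} {F : Type*} [Field F] (ψ : (Fin (m + 1) → F) → ℚ) (z : Fin (m + 1) → F)
    (g : OG (m + 1) F) : ℚ :=
  ψ fun i => (((g : GL (Fin (m + 1)) F) : Matrix (Fin (m + 1)) (Fin (m + 1)) F)ᵀ *ᵥ z) i ^ 2

/-- Replace the coordinates `k, k + 1`. -/
def upd {m : ℕ} {C : Type*} (x : Fin (m + 1) → C) (k : Fin m) (s t : C) : Fin (m + 1) → C :=
  Function.update (Function.update x k.castSucc s) k.succ t

end Vale.Agent.P240
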